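import Vale.Agent.Lib.P328Q.BoxSlice

/-!
Near tables of a box with a frozen initial segment, in lexicographic order of the cells: every near table is got from a
table of the box by a bounded change. So the number of near tables is at most polynomially larger.
-/

namespace Vale.Agent.Lib.P328S

open Finset Vale.Agent.Lib.P328Q

noncomputable section

variable {m n : ℕ} {lo hi : Mat m n} {r : Fin m → ℤ} {c : Fin n → ℤ}

/-- Frozen cells have `lo = hi`, free cells have `lo = 0` and `hi = B`, and the free cells are an upper set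
in the lexicographic order. -/
structure StairBox (fr : Fin m → Fin n → Prop) (lo hi : Mat m n) (B : ℤ) : Prop where
  frz : ∀ i j, ¬ fr i j → lo i j = hi i j
  free : ∀ i j, fr i j → lo i j = 0 ∧ hi i j = B
  nonneg : 0 ≤ lo
  up1 : ∀ i j, fr i j → ∀ i' j', i < i' → fr i' j'
  up2 : ∀ i j, fr i j → ∀ j', j < j' → fr i j'

/-- The codes of the changes. -/
abbrev RCode (m n : ℕ) := Unit ⊕ (Fin m × Fin n) ⊕ (Fin m × Fin n × Fin m × Fin n)

/-- The change. -/
def rpsi (a : Fin m) (b : Fin n) : RCode m n → Mat m n → Mat m n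
  | Sum.inl _, X => X + eu a b
  | Sum.inr (Sum.inl (i, j)), X => X + eu a j + eu i b - eu i j
  | Sum.inr (Sum.inr (i0, j, i', j')), X => X + eu a j + eu i0 b - eu i' j + eu i' j' - eu i0 j'

theorem ite_three (p1 p2 p3 : Prop) [Decidable p1] [Decidable p2] [Decidable p3] (e : ℤ) (h0 : 0 ≤ e)
    (h1 : p1 → 1 ≤ e) (h2 : p2 → 1 ≤ e) (h3 : p3 → 1 ≤ e) (h12 : p1 → ¬ p2) (h13 : p1 → ¬ p3)
    (h23 : p2 → ¬ p3) :
    (if p1 then (1 : ℤ) else 0) + (if p2 then 1 else 0) + (if p3 then 1 else 0) ≤ e := by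
  by_cases c1 : p1
  · have := h1 c1
    simp [c1, h12 c1, h13 c1]
    exact this
  · by_cases c2 : p2
    · have := h2 c2
      simp [c1, c2, h23 c2]
      exact this
    · by_cases c3 : p3
      · have := h3 c3
        simp [c1, c2, c3]
        exact this
      · simp [c1, c2, c3]
        exact h0

theorem ite_nn (p : Prop) [Decidable p] : (0 : ℤ) ≤ if p then 1 else 0 := by
  split_ifs <;> simp

section

variable {fr : Fin m → Fin n → Prop} {B : ℤ}

theorem mem_of_perturb (hS : StairBox fr lo hi B) (hB : ∀ i, r i ≤ B) {E X : Mat m n}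
    (hEb : ∀ i j, lo i j ≤ E i j ∧ E i j ≤ hi i j)
    (h1 : ∀ i j, fr i j → 0 ≤ X i j) (h2 : ∀ i j, ¬ fr i j → X i j = E i j)
    (h3 : rowSum X = r) (h4 : colSum X = c) : X ∈ slc lo hi r c := by
  classical
  have hnn : ∀ i j, 0 ≤ X i j := by
    intro i j
    by_cases h : fr i j
    · exact h1 i j h
    · rw [h2 i j h]
      exact le_trans (hS.nonneg i j) (hEb i j).1
  rw [mem_slc]
  refine ⟨fun i j => ?_, h3, h4⟩
  by_cases h : fr i j
  · obtain ⟨h5, h6⟩ := hS.free i j h
    rw [h5, h6]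
    refine ⟨hnn i j, ?_⟩
    calc X i j ≤ ∑ j', X i j' :=
          Finset.single_le_sum (f := fun j' => X i j') (fun j' _ => hnn i j') (Finset.mem_univ j)
      _ = r i := by rw [← h3]; rfl
      _ ≤ B := hB i
  · rw [h2 i j h]
    exact hEb i j

/-- The change is available. -/
theorem repair (hS : StairBox fr lo hi B) (hB : ∀ i, r i ≤ B) {X0 : Mat m n}
    (hX0 : X0 ∈ slc lo hi r c) (a : Fin m) (b : Fin n) {E : Mat m n}
    (hE : E ∈ nearP lo hi r c a b) :
    ∃ code : RCode m n, ∃ X ∈ slc lo hi r c, E = rpsi a b code X := by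
  classical
  unfold nearP at hE
  rw [mem_slc] at hE hX0
  obtain ⟨hEb, hEr, hEc⟩ := hE
  obtain ⟨hXb, hXr, hXc⟩ := hX0
  have hEnn : ∀ i j, 0 ≤ E i j := fun i j => le_trans (hS.nonneg i j) (hEb i j).1
  have hXnn : ∀ i j, 0 ≤ X0 i j := fun i j => le_trans (hS.nonneg i j) (hXb i j).1
  have hsame : ∀ i j, ¬ fr i j → E i j = X0 i j := by
    intro i j h
    have := hS.frz i j h
    have h1 := hEb i j
    have h2 := hXb i j
    omega
  have hErow : ∀ i, ∑ j, E i j = r i + (if i = a then 1 else 0) := by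
    intro i
    have := congrFun hEr i
    simp only [rowSum, Pi.add_apply, Pi.single_apply] at this
    exact this
  have hEcol : ∀ j, ∑ i, E i j = c j + (if j = b then 1 else 0) := by
    intro j
    have := congrFun hEc j
    simp only [colSum, Pi.add_apply, Pi.single_apply] at this
    exact this
  have hXrow : ∀ i, ∑ j, X0 i j = r i := fun i => congrFun hXr i
  have hXcol : ∀ j, ∑ i, X0 i j = c j := fun j => congrFun hXc j
  -- free cells with a positive entry in the row and in the column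
  have hrow : ∃ j, fr a j ∧ 1 ≤ E a j := by
    by_contra hcon
    push Not at hcon
    have h1 : ∑ j, E a j ≤ ∑ j, X0 a j := by
      refine Finset.sum_le_sum fun j _ => ?_
      by_cases h : fr a j
      · have := hcon j h
        have := hXnn a j
        omega
      · rw [hsame a j h]
    rw [hErow, hXrow] at h1
    simp at h1
  have hcol : ∃ i, fr i b ∧ 1 ≤ E i b := by
    by_contra hcon
    push Not at hcon
    have h1 : ∑ i, E i b ≤ ∑ i, X0 i b := by
      refine Finset.sum_le_sum fun i _ => ?_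
      by_cases h : fr i b
      · have := hcon i h
        have := hXnn i b
        omega
      · rw [hsame i b h]
    rw [hEcol, hXcol] at h1
    simp at h1
  by_cases hA : fr a b ∧ 1 ≤ E a b
  · -- the surplus cell itself
    refine ⟨Sum.inl (), E - eu a b, ?_, by simp [rpsi]⟩
    refine mem_of_perturb hS hB hEb (E := E) ?_ ?_ ?_ ?_
    · intro x y _
      simp only [Pi.sub_apply, eu_apply]
      by_cases h : x = a ∧ y = b
      · obtain ⟨rfl, rfl⟩ := h
        simp
        exact hA.2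
      · simp [h]
        exact hEnn x y
    · intro x y hf
      have : ¬ (x = a ∧ y = b) := by
        rintro ⟨rfl, rfl⟩
        exact hf hA.1
      simp [eu_apply, this]
    · rw [rowSum_sub, hEr, rowSum_eu]
      abel
    · rw [colSum_sub, hEc, colSum_eu]
      abel
  obtain ⟨j₁, hj₁f, hj₁⟩ := hrow
  obtain ⟨i₁, hi₁f, hi₁⟩ := hcol
  have hjb : ∀ j, fr a j → 1 ≤ E a j → j ≠ b := by
    rintro j h1 h2 rfl
    exact hA ⟨h1, h2⟩
  have hia : ∀ i, fr i b → 1 ≤ E i b → i ≠ a := by
    rintro i h1 h2 rfl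
    exact hA ⟨h1, h2⟩
  by_cases hB1 : ∃ i j, fr i b ∧ 1 ≤ E i b ∧ fr a j ∧ 1 ≤ E a j ∧ fr i j
  · -- one exchange
    obtain ⟨i, j, h1, h2, h3, h4, h5⟩ := hB1
    have hne1 := hia i h1 h2
    have hne2 := hjb j h3 h4
    refine ⟨Sum.inr (Sum.inl (i, j)), E - eu a j - eu i b + eu i j, ?_, by
      simp only [rpsi]; abel⟩
    refine mem_of_perturb hS hB hEb (E := E) ?_ ?_ ?_ ?_
    · intro x y _
      simp only [Pi.sub_apply, Pi.add_apply, eu_apply]
      have h6 := ite_three (x = a ∧ y = j) (x = i ∧ y = b) False (E x y) (hEnn x y)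
        (by rintro ⟨rfl, rfl⟩; exact h4) (by rintro ⟨rfl, rfl⟩; exact h2) (by simp)
        (by rintro ⟨rfl, rfl⟩ ⟨h7, -⟩; exact hne1 h7.symm) (by simp) (by simp)
      have h7 := ite_nn (x = i ∧ y = j)
      simp only [if_false, add_zero] at h6
      omega
    · intro x y hf
      have c1 : ¬ (x = a ∧ y = j) := by rintro ⟨rfl, rfl⟩; exact hf h3
      have c2 : ¬ (x = i ∧ y = b) := by rintro ⟨rfl, rfl⟩; exact hf h1
      have c3 : ¬ (x = i ∧ y = j) := by rintro ⟨rfl, rfl⟩; exact hf h5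
      simp [eu_apply, c1, c2, c3]
    · rw [rowSum_add, rowSum_sub, rowSum_sub, hEr, rowSum_eu, rowSum_eu, rowSum_eu]
      abel
    · rw [colSum_add, colSum_sub, colSum_sub, hEc, colSum_eu, colSum_eu, colSum_eu]
      abel
  -- two exchanges
  push Not at hB1
  have hH := hB1
  set i₀ := i₁ with hi₀
  set j := j₁ with hj
  have hfz : ¬ fr i₀ j := hH i₀ j hi₁f hi₁ hj₁f hj₁
  have hi₀a : i₀ < a := by
    rcases lt_trichotomy i₀ a with h | h | h
    · exact h
    · exact absurd h (hia i₀ hi₁f hi₁)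
    · exact absurd (hS.up1 a j hj₁f i₀ j h) hfz
  have hjlt : j < b := by
    rcases lt_trichotomy j b with h | h | h
    · exact h
    · exact absurd h (hjb j hj₁f hj₁)
    · exact absurd (hS.up2 i₀ b hi₁f j h) hfz
  have hfree : ∀ i', i₀ < i' → ∀ j', fr i' j' := fun i' hi' j' => hS.up1 i₀ b hi₁f i' j' hi'
  have hcolb : ∀ i', i₀ < i' → E i' b ≤ 0 := by
    intro i' hi'
    by_contra hcon
    exact hH i' j (hfree i' hi' b) (by omega) hj₁f hj₁ (hfree i' hi' j)
  have hrowa : ∀ j', fr i₀ j' → E a j' ≤ 0 := by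
    intro j' hj'
    by_contra hcon
    exact hH i₀ j' hi₁f hi₁ (hfree a hi₀a j') (by omega) hj'
  have hfrozen : ∀ i', i' < i₀ → ∀ j', ¬ fr i' j' := by
    intro i' hi' j' h
    exact hfz (hS.up1 i' j' h i₀ j hi')
  -- a positive entry in the free rectangle
  have hrect : ∃ i' j', i₀ < i' ∧ fr i₀ j' ∧ 1 ≤ E i' j' := by
    by_contra hcon
    push Not at hcon
    set C := (univ : Finset (Fin n)).filter fun j' => fr i₀ j' with hC
    have hbC : b ∈ C := mem_filter.2 ⟨mem_univ _, hi₁f⟩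
    have hsum : ∀ i', ∑ j' ∈ C, E i' j' ≤ ∑ j' ∈ C, X0 i' j' := by
      intro i'
      rcases lt_trichotomy i' i₀ with h | h | h
      · refine sum_le_sum fun j' _ => ?_
        rw [hsame i' j' (hfrozen i' h j')]
      · subst h
        have h1 := hErow i'
        rw [if_neg (ne_of_lt hi₀a)] at h1
        have h2 := hXrow i'
        rw [← sum_filter_add_sum_filter_not univ (fun j' => fr i' j')] at h1 h2
        have h3 : ∑ j' ∈ univ.filter (fun j' => ¬ fr i' j'), E i' j' =
            ∑ j' ∈ univ.filter (fun j' => ¬ fr i' j'), X0 i' j' := by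
          refine sum_congr rfl fun j' hj' => ?_
          exact hsame i' j' (mem_filter.1 hj').2
        rw [hC] at *
        linarith
      · refine sum_le_sum fun j' hj' => ?_
        have := hcon i' j' h (mem_filter.1 hj').2
        have := hXnn i' j'
        omega
    have h1 : ∑ j' ∈ C, ∑ i', E i' j' ≤ ∑ j' ∈ C, ∑ i', X0 i' j' := by
      rw [sum_comm, sum_comm (s := C)]
      exact sum_le_sum fun i' _ => hsum i'
    have h2 : ∑ j' ∈ C, ∑ i', E i' j' = ∑ j' ∈ C, c j' + 1 := by
      rw [sum_congr rfl fun j' _ => hEcol j', sum_add_distrib, sum_ite_eq' C b]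
      simp [hbC]
    have h3 : ∑ j' ∈ C, ∑ i', X0 i' j' = ∑ j' ∈ C, c j' := sum_congr rfl fun j' _ => hXcol j'
    rw [h2, h3] at h1
    omega
  obtain ⟨i', j', hi', hj'f, hE'⟩ := hrect
  have hj'b : j' ≠ b := by
    rintro rfl
    have := hcolb i' hi'
    omega
  have hi'a : i' ≠ a := by
    rintro rfl
    have := hrowa j' hj'f
    omega
  have hjj' : j ≠ j' := by
    rintro h
    rw [h] at hfz
    exact hfz hj'f
  have hi₀a' : i₀ ≠ a := ne_of_lt hi₀a
  have hi₀i' : i₀ ≠ i' := ne_of_lt hi'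
  refine ⟨Sum.inr (Sum.inr (i₀, j, i', j')),
    E - eu a j - eu i₀ b + eu i' j - eu i' j' + eu i₀ j', ?_, by simp only [rpsi]; abel⟩
  refine mem_of_perturb hS hB hEb (E := E) ?_ ?_ ?_ ?_
  · intro x y _
    simp only [Pi.sub_apply, Pi.add_apply, eu_apply]
    have h6 := ite_three (x = a ∧ y = j) (x = i₀ ∧ y = b) (x = i' ∧ y = j') (E x y) (hEnn x y)
      (by rintro ⟨rfl, rfl⟩; exact hj₁) (by rintro ⟨rfl, rfl⟩; exact hi₁) (by rintro ⟨rfl, rfl⟩; exact hE')
      (by rintro ⟨rfl, rfl⟩ ⟨h7, -⟩; exact hi₀a' h7.symm)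
      (by rintro ⟨rfl, rfl⟩ ⟨h7, -⟩; exact hi'a h7.symm)
      (by rintro ⟨rfl, rfl⟩ ⟨h7, -⟩; exact hi₀i' h7)
    have h7 := ite_nn (x = i' ∧ y = j)
    have h8 := ite_nn (x = i₀ ∧ y = j')
    omega
  · intro x y hf
    have c1 : ¬ (x = a ∧ y = j) := by rintro ⟨rfl, rfl⟩; exact hf hj₁f
    have c2 : ¬ (x = i₀ ∧ y = b) := by rintro ⟨rfl, rfl⟩; exact hf hi₁f
    have c3 : ¬ (x = i' ∧ y = j) := by rintro ⟨rfl, rfl⟩; exact hf (hfree _ hi' _)
    have c4 : ¬ (x = i' ∧ y = j') := by rintro ⟨rfl, rfl⟩; exact hf (hfree _ hi' _)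
    have c5 : ¬ (x = i₀ ∧ y = j') := by rintro ⟨rfl, rfl⟩; exact hf hj'f
    simp [eu_apply, c1, c2, c3, c4, c5]
  · rw [rowSum_add, rowSum_sub, rowSum_add, rowSum_sub, rowSum_sub, hEr, rowSum_eu, rowSum_eu,
      rowSum_eu, rowSum_eu, rowSum_eu]
    abel
  · rw [colSum_add, colSum_sub, colSum_add, colSum_sub, colSum_sub, hEc, colSum_eu, colSum_eu,
      colSum_eu, colSum_eu, colSum_eu]
    abel

/-- The number of near tables of a box with a frozen initial segment. -/
theorem card_nearP_repair (hS : StairBox fr lo hi B) (hB : ∀ i, r i ≤ B)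
    (hne : (slc lo hi r c).Nonempty) (a : Fin m) (b : Fin n) :
    (nearP lo hi r c a b).card ≤ (1 + m * n + (m * n) ^ 2) * (slc lo hi r c).card := by
  classical
  obtain ⟨X0, hX0⟩ := hne
  have hsub : nearP lo hi r c a b ⊆
      ((univ : Finset (RCode m n)) ×ˢ slc lo hi r c).image (fun p => rpsi a b p.1 p.2) := by
    intro E hE
    obtain ⟨code, X, hX, rfl⟩ := repair hS hB hX0 a b hE
    exact mem_image.2 ⟨(code, X), mem_product.2 ⟨mem_univ _, hX⟩, rfl⟩
  refine (card_le_card hsub).trans (card_image_le.trans ?_)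
  rw [card_product]
  refine Nat.mul_le_mul_right _ (le_of_eq ?_)
  simp [Fintype.card_sum, Fintype.card_prod]
  ring

end

end

end Vale.Agent.Lib.P328S
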