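import Vale.Agent.Lib.P328S.Step
import Vale.Agent.Lib.P328S.Repair

/-!
Revealing the cells one at a time in lexicographic order: the Poincare inequality on all boxes with a frozen initial segment.
-/

namespace Vale.Agent.Lib.P328S

open Finset Vale.Agent.Lib.P328Q
open scoped Pointwise

noncomputable section

variable {m n : ℕ} {lo hi : Mat m n} {r : Fin m → ℤ} {c : Fin n → ℤ}

/-- One cell: total variance, the one-dimensional inequality, and the windows. -/
theorem cell_step (g : Mat m n → ℝ) (hlo : 0 ≤ lo) (p : Fin m) (q : Fin n) (W : ℕ)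
    (hW : ∀ X ∈ slc lo hi r c, 0 ≤ X p q ∧ X p q < W) (K R : ℝ) (hK : 0 ≤ K) (hR : 0 ≤ R)
    (hIH : ∀ v : ℤ, (cpart (slc lo hi r c) p q v).Nonempty →
      wv (slc (setCell lo p q v) (setCell hi p q v) r c) g ≤
        K * ((slc (setCell lo p q v) (setCell hi p q v) r c).card : ℝ) *
          DD g (setCell lo p q v) (setCell hi p q v) r c)
    (hnear : ∀ w, (cpart (slc lo hi r c) p q w).Nonempty → ∀ a b,
      ((nearP (setCell lo p q w) (setCell hi p q w) r c a b).card : ℝ) ≤
        R * ((cpart (slc lo hi r c) p q w).card : ℝ)) :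
    wv (slc lo hi r c) g ≤
      (K + 4 * (W : ℝ) ^ 2 * (m : ℝ) * R) * ((slc lo hi r c).card : ℝ) * DD g lo hi r c := by
  classical
  set F := slc lo hi r c with hF
  set Fv : ℕ → Finset (Mat m n) := fun v => cpart F p q (v : ℤ) with hFvdef
  set Nn : ℕ → ℕ := fun v => (Fv v).card with hNn
  set Nv : ℕ → ℝ := fun v => ((Fv v).card : ℝ) with hNv
  set Gv : ℕ → ℝ := fun v => (∑ x ∈ Fv v, g x) / Nv v with hGv
  set DF := DD g lo hi r c with hDF
  have hDF0 : 0 ≤ DF := sA_DD_nonneg g lo hi r c
  have hFcard : (0 : ℝ) ≤ (F.card : ℝ) := Nat.cast_nonneg _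
  have hm0 : (0 : ℝ) ≤ m := Nat.cast_nonneg m
  have hκ : ∀ x ∈ F, (x p q).toNat < W := by
    intro x hx
    have := hW x hx
    omega
  have hFv : ∀ v, Fv v = F.filter fun x => (x p q).toNat = v := by
    intro v
    simp only [hFvdef, cpart]
    refine filter_congr fun x hx => ?_
    have := hW x hx
    omega
  have htv := total_var F (fun x => (x p q).toNat) W hκ g Fv hFv Nv Gv (fun _ => rfl) (fun _ => rfl)
  have hC : ∑ v ∈ range W, Nv v = (F.card : ℝ) := by
    simp only [hNv]
    rw [← Nat.cast_sum]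
    congr 1
    simp only [hFv]
    exact (card_eq_sum_card_fiberwise
      (fun x hx => mem_coe.2 (mem_range.2 (hκ x (mem_coe.1 hx))))).symm
  -- the conditional variances
  have hP1 : ∑ v ∈ range W, (∑ x ∈ Fv v, ∑ y ∈ Fv v, (g x - g y) ^ 2) / Nv v ≤ K * DF := by
    calc _ ≤ ∑ v ∈ range W, K * Tp g lo hi r c p q (v : ℤ) := by
          refine sum_le_sum fun v _ => ?_
          rcases (Fv v).eq_empty_or_nonempty with hemp | hne
          · simp only [hNv, hemp, card_empty, Nat.cast_zero, div_zero]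
            exact mul_nonneg hK (Tp_nonneg _ _ _ _ _ _ _ _)
          · have hNpos : 0 < Nv v := by
              simp only [hNv]
              exact_mod_cast card_pos.2 hne
            obtain ⟨X, hX⟩ := hne
            have hX' := mem_cpart.1 hX
            have hXb := (mem_slc.1 hX'.1).1 p q
            rw [hX'.2] at hXb
            have h1 := hIH (v : ℤ) ⟨X, hX⟩
            rw [slc_frozen_eq hXb.1 hXb.2] at h1
            have h2 := DD_frozen_le (r := r) (c := c) g hXb.1 hXb.2
            rw [div_le_iff₀ hNpos]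
            have h3 : wv (Fv v) g ≤ K * Nv v * DD g (setCell lo p q v) (setCell hi p q v) r c := h1
            calc (∑ x ∈ Fv v, ∑ y ∈ Fv v, (g x - g y) ^ 2) = wv (Fv v) g := rfl
              _ ≤ _ := h3
              _ = (K * DD g (setCell lo p q v) (setCell hi p q v) r c) * Nv v := by ring
              _ ≤ _ := mul_le_mul_of_nonneg_right (mul_le_mul_of_nonneg_left h2 hK) hNpos.le
      _ = K * ∑ v ∈ range W, Tp g lo hi r c p q (v : ℤ) := by rw [mul_sum]
      _ ≤ _ := mul_le_mul_of_nonneg_left (sum_Tp_le _ _ _ _ _ _ _ _) hK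
  -- the cell law is unimodal
  have hcast1 : ∀ v : ℕ, ((v : ℤ) + 1 : ℤ) = ((v + 1 : ℕ) : ℤ) := fun v => by push_cast; ring
  have hlc : ∀ v, Nn v * Nn (v + 2) ≤ Nn (v + 1) ^ 2 := by
    intro v
    have h := P328U.cnt_logconcave lo hi r c p q ((v : ℤ) + 1)
    have e1 : (v : ℤ) + 1 - 1 = v := by ring
    have e2 : (v : ℤ) + 1 + 1 = ((v + 2 : ℕ) : ℤ) := by push_cast; ring
    rw [e1, e2, hcast1] at h
    exact h
  have hint : ∀ u v w, u ≤ v → v ≤ w → 0 < Nn u → 0 < Nn w → 0 < Nn v := by
    intro u v w huv hvw hu hw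
    obtain ⟨X, hX⟩ := card_pos.1 hu
    obtain ⟨Y, hY⟩ := card_pos.1 hw
    have hX' := mem_cpart.1 hX
    have hY' := mem_cpart.1 hY
    obtain ⟨Z, hZ, hZv⟩ := P328U.slc_ivt hX'.1 hY'.1 p q (v := (v : ℤ))
      (by rw [hX'.2]; exact min_le_of_left_le (by exact_mod_cast huv))
      (by rw [hY'.2]; exact le_max_of_le_right (by exact_mod_cast hvw))
    exact card_pos.2 ⟨Z, mem_cpart.2 ⟨hZ, hZv⟩⟩
  have hmono : ∀ x, x + 1 < W → (∀ u, u ≤ x → Nv u ≤ min (Nv x) (Nv (x + 1))) ∨
      (∀ v, x < v → v < W → Nv v ≤ min (Nv x) (Nv (x + 1))) := by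
    intro x _
    have e : min (Nv x) (Nv (x + 1)) = ((min (Nn x) (Nn (x + 1)) : ℕ) : ℝ) := by
      simp only [hNv, hNn]
      push_cast
      rfl
    rw [e]
    rcases mono_of_logconcave Nn hlc hint x with h | h
    · left
      intro u hu
      have h9 := h u hu
      show ((Nn u : ℕ) : ℝ) ≤ _
      exact_mod_cast h9
    · right
      intro v hv _
      have h9 := h v hv
      show ((Nn v : ℕ) : ℝ) ≤ _
      exact_mod_cast h9
  have h1d := one_dim W Nv Gv (fun v => Nat.cast_nonneg _) hmono
  rw [hC] at h1d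
  -- the windows
  have hwin : ∀ x ∈ range (W - 1), min (Nv x) (Nv (x + 1)) * (Gv x - Gv (x + 1)) ^ 2 ≤
      (m : ℝ) * R * (Tp g lo hi r c p q (x : ℤ) + Tp g lo hi r c p q ((x + 1 : ℕ) : ℤ)) := by
    intro x _
    have hTT := add_nonneg (Tp_nonneg g lo hi r c p q (x : ℤ))
      (Tp_nonneg g lo hi r c p q ((x + 1 : ℕ) : ℤ))
    have hrhs : 0 ≤ (m : ℝ) * R *
        (Tp g lo hi r c p q (x : ℤ) + Tp g lo hi r c p q ((x + 1 : ℕ) : ℤ)) := by positivity
    rcases (Fv x).eq_empty_or_nonempty with h0 | hne0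
    · have : min (Nv x) (Nv (x + 1)) = 0 := by
        have h2 : Nv x = 0 := by simp only [hNv, h0, card_empty, Nat.cast_zero]
        rw [h2]
        exact min_eq_left (Nat.cast_nonneg _)
      rw [this, zero_mul]
      exact hrhs
    rcases (Fv (x + 1)).eq_empty_or_nonempty with h0 | hne1
    · have : min (Nv x) (Nv (x + 1)) = 0 := by
        have h2 : Nv (x + 1) = 0 := by simp only [hNv, h0, card_empty, Nat.cast_zero]
        rw [h2]
        exact min_eq_right (Nat.cast_nonneg _)
      rw [this, zero_mul]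
      exact hrhs
    have hcast : ((x + 1 : ℕ) : ℤ) = (x : ℤ) + 1 := by push_cast; ring
    have hne1' : (cpart F p q ((x : ℤ) + 1)).Nonempty := by
      have := hne1
      simp only [hFvdef] at this
      rwa [hcast] at this
    have hb := window_bound (r := r) (c := c) (lo := lo) (hi := hi) g hlo (x : ℤ) R hR hne0 hne1' hnear
    simp only [hNv, hGv, hFvdef]
    rw [hcast]
    exact hb
  have hsumwin : ∑ x ∈ range (W - 1), min (Nv x) (Nv (x + 1)) * (Gv x - Gv (x + 1)) ^ 2 ≤
      (m : ℝ) * R * (2 * DF) := by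
    calc _ ≤ ∑ x ∈ range (W - 1), (m : ℝ) * R *
          (Tp g lo hi r c p q (x : ℤ) + Tp g lo hi r c p q ((x + 1 : ℕ) : ℤ)) := sum_le_sum hwin
      _ = (m : ℝ) * R * (∑ x ∈ range (W - 1), Tp g lo hi r c p q (x : ℤ) +
          ∑ x ∈ range (W - 1), Tp g lo hi r c p q ((x + 1 : ℕ) : ℤ)) := by
          rw [← mul_sum, sum_add_distrib]
      _ ≤ _ := by
          refine mul_le_mul_of_nonneg_left ?_ (by positivity)
          have h1 : ∑ x ∈ range (W - 1), Tp g lo hi r c p q (x : ℤ) ≤ DF := by
            refine le_trans ?_ (sum_Tp_le g lo hi r c p q W)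
            exact sum_le_sum_of_subset_of_nonneg (range_subset_range.2 (Nat.sub_le _ _))
              (fun _ _ _ => Tp_nonneg _ _ _ _ _ _ _ _)
          have h2 : ∑ x ∈ range (W - 1), Tp g lo hi r c p q ((x + 1 : ℕ) : ℤ) ≤ DF := by
            refine le_trans ?_ (sum_Tp_le g lo hi r c p q W)
            rcases Nat.eq_zero_or_pos W with h0 | hpos
            · subst h0
              simp
            · obtain ⟨W', rfl⟩ : ∃ W', W = W' + 1 := ⟨W - 1, by omega⟩
              rw [sum_range_succ' _ W']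
              simp only [Nat.add_sub_cancel]
              have := Tp_nonneg g lo hi r c p q ((0 : ℕ) : ℤ)
              linarith
          linarith
  -- assembling
  have hwv : wv F g = (F.card : ℝ) * ∑ v ∈ range W, (∑ x ∈ Fv v, ∑ y ∈ Fv v, (g x - g y) ^ 2) / Nv v +
      ∑ u ∈ range W, ∑ v ∈ range W, Nv u * Nv v * (Gv u - Gv v) ^ 2 := htv
  rw [hwv]
  have hW0 : (0 : ℝ) ≤ (W : ℝ) := Nat.cast_nonneg W
  have h2W : 0 ≤ 2 * (W : ℝ) ^ 2 * (F.card : ℝ) := by positivity
  calc _ ≤ (F.card : ℝ) * (K * DF) + 2 * (W : ℝ) ^ 2 * (F.card : ℝ) * ((m : ℝ) * R * (2 * DF)) := by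
        refine add_le_add (mul_le_mul_of_nonneg_left hP1 hFcard) ?_
        exact h1d.trans (mul_le_mul_of_nonneg_left hsumwin h2W)
    _ = _ := by ring

open Classical in
/-- The Poincare inequality on boxes with a frozen initial segment, by induction on the number of free cells. -/
theorem stair_poincare (g : Mat m n → ℝ) (B : ℤ) (hB : ∀ i, r i ≤ B) (W : ℕ)
    (hW : ∀ i j, min (r i) (c j) + 1 ≤ (W : ℤ)) :
    ∀ (k : ℕ) (fr : Fin m → Fin n → Prop) (lo hi : Mat m n), StairBox fr lo hi B →
      (univ.filter fun x : Fin m × Fin n => fr x.1 x.2).card = k →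
      wv (slc lo hi r c) g ≤
        ((k : ℝ) * (4 * (W : ℝ) ^ 2 * (m : ℝ) * (1 + (m : ℝ) * n + ((m : ℝ) * n) ^ 2))) *
          ((slc lo hi r c).card : ℝ) * DD g lo hi r c := by
  intro k
  induction k with
  | zero =>
    intro fr lo hi hS hk
    have hall : ∀ i j, ¬ fr i j := by
      intro i j h
      have : (i, j) ∈ (univ.filter fun x : Fin m × Fin n => fr x.1 x.2) :=
        mem_filter.2 ⟨mem_univ _, h⟩
      rw [card_eq_zero.1 hk] at this
      simp at this
    have hone : (slc lo hi r c).card ≤ 1 := by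
      rw [card_le_one]
      intro X hX Y hY
      funext i j
      have h1 := (mem_slc.1 hX).1 i j
      have h2 := (mem_slc.1 hY).1 i j
      have h3 := hS.frz i j (hall i j)
      omega
    have hwv : wv (slc lo hi r c) g = 0 := by
      unfold wv
      rw [card_le_one] at hone
      refine sum_eq_zero fun x hx => sum_eq_zero fun y hy => ?_
      rw [hone x hx y hy]
      ring
    rw [hwv]
    simp
  | succ k ih =>
    intro fr lo hi hS hk
    set Fr := univ.filter fun x : Fin m × Fin n => fr x.1 x.2 with hFr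
    have hFrne : Fr.Nonempty := card_pos.1 (by omega)
    obtain ⟨⟨p, q⟩, hpq, hmin⟩ := exists_min_image Fr
      (fun x : Fin m × Fin n => x.1.val * n + x.2.val) hFrne
    have hfpq : fr p q := (mem_filter.1 hpq).2
    have hkey : ∀ i j, fr i j → p.val * n + q.val ≤ i.val * n + j.val := fun i j h =>
      hmin (i, j) (mem_filter.2 ⟨mem_univ _, h⟩)
    have hlt1 : ∀ (i i' : Fin m) (j j' : Fin n), i < i' → i.val * n + j.val < i'.val * n + j'.val := by
      intro i i' j j' h
      have h1 : i.val + 1 ≤ i'.val := h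
      have h2 : (i.val + 1) * n ≤ i'.val * n := Nat.mul_le_mul_right n h1
      have h3 := j.isLt
      have h4 : (i.val + 1) * n = i.val * n + n := by ring
      omega
    have hlo0 := hS.nonneg
    set fr' : Fin m → Fin n → Prop := fun i j => fr i j ∧ ¬ (i = p ∧ j = q) with hfr'
    have hk' : (univ.filter fun x : Fin m × Fin n => fr' x.1 x.2).card = k := by
      have : (univ.filter fun x : Fin m × Fin n => fr' x.1 x.2) = Fr.erase (p, q) := by
        ext ⟨i, j⟩
        simp only [hfr', hFr, mem_filter, mem_univ, true_and, mem_erase, ne_eq, Prod.mk.injEq]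
        tauto
      rw [this, card_erase_of_mem hpq]
      omega
    have hSv : ∀ v : ℤ, 0 ≤ v → StairBox fr' (setCell lo p q v) (setCell hi p q v) B := by
      intro v hv
      refine ⟨?_, ?_, ?_, ?_, ?_⟩
      · intro i j h
        by_cases hij : i = p ∧ j = q
        · obtain ⟨rfl, rfl⟩ := hij
          rw [setCell_same, setCell_same]
        · rw [setCell_ne _ _ hij, setCell_ne _ _ hij]
          exact hS.frz i j fun h' => h ⟨h', hij⟩
      · rintro i j ⟨h, hij⟩
        rw [setCell_ne _ _ hij, setCell_ne _ _ hij]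
        exact hS.free i j h
      · intro i j
        by_cases hij : i = p ∧ j = q
        · obtain ⟨rfl, rfl⟩ := hij
          rw [setCell_same]
          exact hv
        · rw [setCell_ne _ _ hij]
          exact hlo0 i j
      · rintro i j ⟨h, -⟩ i' j' hi'
        refine ⟨hS.up1 i j h i' j' hi', ?_⟩
        rintro ⟨rfl, rfl⟩
        have h1 := hkey i j h
        have h2 := hlt1 i i' j j' hi'
        omega
      · rintro i j ⟨h, -⟩ j' hj'
        refine ⟨hS.up2 i j h j' hj', ?_⟩
        rintro ⟨rfl, rfl⟩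
        have h1 := hkey i j h
        have h2 : j.val < j'.val := hj'
        omega
    set A := 4 * (W : ℝ) ^ 2 * (m : ℝ) * (1 + (m : ℝ) * n + ((m : ℝ) * n) ^ 2) with hA
    have hA0 : 0 ≤ A := by positivity
    have hnonneg : ∀ v : ℤ, (cpart (slc lo hi r c) p q v).Nonempty → 0 ≤ v ∧ lo p q ≤ v ∧ v ≤ hi p q := by
      rintro v ⟨X, hX⟩
      have hX' := mem_cpart.1 hX
      have hb := (mem_slc.1 hX'.1).1 p q
      rw [hX'.2] at hb
      exact ⟨le_trans (hlo0 p q) hb.1, hb.1, hb.2⟩
    have hstep := cell_step (r := r) (c := c) (lo := lo) (hi := hi) g hlo0 p q W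
      (fun X hX => by
        have h1 := entry_bound hlo0 hX p q
        have h2 := hW p q
        omega)
      ((k : ℝ) * A) (1 + (m : ℝ) * n + ((m : ℝ) * n) ^ 2) (by positivity) (by positivity)
      (fun v hv => ih fr' _ _ (hSv v (hnonneg v hv).1) (by convert hk'))
      (fun w hw a b => by
        obtain ⟨h0, h1, h2⟩ := hnonneg w hw
        have hslc := slc_frozen_eq (r := r) (c := c) h1 h2
        have hcard := card_nearP_repair (c := c) (hSv w h0) hB (by rw [hslc]; exact hw) a b
        rw [hslc] at hcard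
        calc ((nearP (setCell lo p q w) (setCell hi p q w) r c a b).card : ℝ)
            ≤ (((1 + m * n + (m * n) ^ 2) * (cpart (slc lo hi r c) p q w).card : ℕ) : ℝ) := by
              exact_mod_cast hcard
          _ = _ := by push_cast; ring)
    have e : ((k : ℝ) * A + 4 * (W : ℝ) ^ 2 * (m : ℝ) * (1 + (m : ℝ) * n + ((m : ℝ) * n) ^ 2)) =
        (((k + 1 : ℕ) : ℝ) * A) := by
      push_cast
      rw [hA]
      ring
    rw [e] at hstep
    exact hstep

end

end Vale.Agent.Lib.P328S
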