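import Vale.Agent.Lib.P328S.ClaimB
import Vale.Agent.Lib.P328Q.TwoPoint

/-!
The difference of the two means at a binary cell of a central slice: the recursion over additive fibres
costs nothing.
-/

namespace Vale.Agent.Lib.P328S

open Finset Vale.Agent.Lib.P328Q
open scoped Pointwise

noncomputable section

variable {m n : ℕ} {lo hi U : Mat m n} {r : Fin m → ℤ} {c : Fin n → ℤ}

section Abstract

variable {G : Type*} [AddCommGroup G] [DecidableEq G]

/-- The points `x` of `A` with `U - x` in `B`. -/
def aU (A B : Finset G) (U : G) : Finset G := A.filter fun x => U - x ∈ B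

theorem mem_aU {A B : Finset G} {U x : G} : x ∈ aU A B U ↔ x ∈ A ∧ U - x ∈ B := by
  simp [aU]

/-- Summation over pairs fibred along the sum. -/
theorem sum_pairs_fibre {β : Type*} [AddCommMonoid β] (A B : Finset G) (h : G → G → β) :
    ∑ U ∈ A + B, ∑ x ∈ aU A B U, h x (U - x) = ∑ x ∈ A, ∑ y ∈ B, h x y := by
  classical
  rw [← Finset.sum_product' A B h]
  have hmaps : ∀ p ∈ A ×ˢ B, p.1 + p.2 ∈ A + B := by
    intro p hp
    rw [Finset.mem_product] at hp
    exact Finset.add_mem_add hp.1 hp.2
  rw [← Finset.sum_fiberwise_of_maps_to hmaps]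
  refine Finset.sum_congr rfl fun W _ => ?_
  refine Finset.sum_bij' (fun x _ => (x, W - x)) (fun p _ => p.1) ?_ ?_ ?_ ?_ ?_
  · intro x hx
    rw [mem_aU] at hx
    simp [hx.1, hx.2]
  · intro p hp
    simp only [Finset.mem_filter, Finset.mem_product] at hp
    rw [mem_aU]
    refine ⟨hp.1.1, ?_⟩
    have : W - p.1 = p.2 := by rw [← hp.2]; abel
    rw [this]; exact hp.1.2
  · intro x _; rfl
  · intro p hp
    simp only [Finset.mem_filter, Finset.mem_product] at hp
    have : W - p.1 = p.2 := by rw [← hp.2]; abel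
    ext <;> simp [this]
  · intro x _; rfl

theorem sum_card_aU (A B : Finset G) : ∑ U ∈ A + B, (aU A B U).card = A.card * B.card := by
  have h := sum_pairs_fibre (β := ℕ) A B (fun _ _ => 1)
  simpa using h

theorem sum_aU_symm (A B : Finset G) (U : G) (g : G → ℝ) :
    ∑ x ∈ aU A B U, g (U - x) = ∑ y ∈ aU B A U, g y := by
  refine Finset.sum_bij' (fun x _ => U - x) (fun x _ => U - x) ?_ ?_ ?_ ?_ ?_
  · intro x hx
    rw [mem_aU] at hx ⊢
    refine ⟨hx.2, ?_⟩
    simpa using hx.1
  · intro x hx
    rw [mem_aU] at hx ⊢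
    refine ⟨hx.2, ?_⟩
    simpa using hx.1
  · intro x _; simp
  · intro x _; simp
  · intro x _; rfl

/-- The fibre difference. -/
def dU (A B : Finset G) (g : G → ℝ) (U : G) : ℝ :=
  ∑ x ∈ aU A B U, g x - ∑ y ∈ aU B A U, g y

theorem sum_dU (A B : Finset G) (g : G → ℝ) :
    ∑ U ∈ A + B, dU A B g U = (B.card : ℝ) * ∑ x ∈ A, g x - (A.card : ℝ) * ∑ y ∈ B, g y := by
  have h := sum_pairs_fibre (β := ℝ) A B (fun x y => g x - g y)
  have h1 : ∀ U ∈ A + B, ∑ x ∈ aU A B U, (g x - g (U - x)) = dU A B g U := by
    intro U _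
    rw [sum_sub_distrib, sum_aU_symm]
    rfl
  rw [sum_congr rfl h1] at h
  rw [h]
  simp only [sum_sub_distrib, sum_const, nsmul_eq_mul]
  rw [← mul_sum]

theorem card_aU_pos {A B : Finset G} {U : G} (hU : U ∈ A + B) : 0 < (aU A B U).card := by
  obtain ⟨x, hx, y, hy, rfl⟩ := mem_add.1 hU
  refine card_pos.2 ⟨x, mem_aU.2 ⟨hx, ?_⟩⟩
  simpa using hy

/-- Cauchy-Schwarz along the fibres. -/
theorem pair_fibre_cs (A B : Finset G) (g : G → ℝ) :
    ((B.card : ℝ) * ∑ x ∈ A, g x - (A.card : ℝ) * ∑ y ∈ B, g y) ^ 2 ≤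
      (A.card : ℝ) * B.card * ∑ U ∈ A + B, dU A B g U ^ 2 / ((aU A B U).card : ℝ) := by
  rw [← sum_dU]
  have hpos : ∀ U ∈ A + B, (0 : ℝ) < ((aU A B U).card : ℝ) := fun U hU => by
    exact_mod_cast card_aU_pos hU
  have h1 := Finset.sum_sq_le_sum_mul_sum_of_sq_le_mul (A + B)
    (r := fun U => dU A B g U) (f := fun U => ((aU A B U).card : ℝ))
    (g := fun U => dU A B g U ^ 2 / ((aU A B U).card : ℝ))
    (fun U hU => (hpos U hU).le)
    (fun U hU => div_nonneg (sq_nonneg _) (hpos U hU).le)
    (fun U hU => by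
      have := (hpos U hU).ne'
      refine le_of_eq ?_
      field_simp)
  have h2 : ∑ U ∈ A + B, ((aU A B U).card : ℝ) = (A.card : ℝ) * B.card := by
    exact_mod_cast sum_card_aU A B
  rw [h2] at h1
  exact h1

end Abstract

theorem sA_kap_nonneg (g : Mat m n → ℝ) (a : Fin m) (b : Fin n) (V : Mat m n) :
    0 ≤ kap g a b V := by
  unfold kap
  refine sum_nonneg fun i _ => sum_nonneg fun b' _ => ?_
  split_ifs
  · exact sq_nonneg _
  · exact le_refl _

theorem sA_DD_nonneg (g : Mat m n → ℝ) (lo hi : Mat m n) (r : Fin m → ℤ) (c : Fin n → ℤ) :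
    0 ≤ DD g lo hi r c := by
  unfold DD
  exact sum_nonneg fun a _ => sum_nonneg fun b _ => sum_nonneg fun V _ => sA_kap_nonneg g a b V

/-- The exchange of summation over fibres and near tables. -/
theorem exch (g : Mat m n → ℝ) (lo hi : Mat m n) (r : Fin m → ℤ) (c : Fin n → ℤ)
    (W : Finset (Mat m n)) (hW : ∀ U ∈ W, rowSum U = 2 • r ∧ colSum U = 2 • c) :
    ∑ U ∈ W, DD g (loF lo hi U) (hiF lo hi U) r c =
      ∑ a, ∑ b, ∑ V ∈ nearM lo hi r c a b, kap g a b V *
        ((W.filter fun U => U - V ∈ nearP lo hi r c a b).card : ℝ) := by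
  classical
  have h1 : ∀ U ∈ W, DD g (loF lo hi U) (hiF lo hi U) r c =
      ∑ a, ∑ b, ∑ V ∈ nearM lo hi r c a b,
        if U - V ∈ nearP lo hi r c a b then kap g a b V else 0 := by
    intro U hU
    unfold DD
    refine sum_congr rfl fun a _ => sum_congr rfl fun b _ => ?_
    rw [← sum_filter]
    refine sum_congr ?_ fun _ _ => rfl
    ext V
    rw [mem_nearM_fib (hW U hU), mem_filter]
  rw [sum_congr rfl h1, sum_comm]
  refine sum_congr rfl fun a _ => ?_
  rw [sum_comm]
  refine sum_congr rfl fun b _ => ?_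
  rw [sum_comm]
  refine sum_congr rfl fun V _ => ?_
  rw [card_eq_sum_ones, Nat.cast_sum, mul_sum, sum_filter]
  refine sum_congr rfl fun U _ => ?_
  split_ifs <;> simp

/-- The filtered count is bounded through an injection into near tables. -/
theorem count_le (lo hi : Mat m n) (r : Fin m → ℤ) (c : Fin n → ℤ) (p : Fin m) (q : Fin n) (τ : ℤ)
    (W : Finset (Mat m n)) (hW : ∀ U ∈ W, U p q = τ) (a : Fin m) (b : Fin n) (V : Mat m n) :
    (W.filter fun U => U - V ∈ nearP lo hi r c a b).card ≤
      (cpart (nearP lo hi r c a b) p q (τ - V p q)).card := by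
  refine card_le_card_of_injOn (fun U => U - V) ?_ ?_
  · intro U hU
    have hU' := mem_filter.1 (mem_coe.1 hU)
    refine mem_coe.2 (mem_cpart.2 ⟨hU'.2, ?_⟩)
    simp only [Pi.sub_apply]
    rw [hW U hU'.1]
  · intro x _ y _ h
    exact sub_left_injective h

/-- Fibres of a slice at a cell whose value is central. -/
theorem aU_cpart {lo hi : Mat m n} {p : Fin m} {q : Fin n} {U : Mat m n}
    (hU : U p q = lo p q + hi p q) (w : ℤ) (w' : ℤ) (hww : w + w' = lo p q + hi p q) :
    aU (cpart (slc lo hi r c) p q w) (cpart (slc lo hi r c) p q w') U =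
      cpart (fib (slc lo hi r c) U) p q w := by
  ext x
  rw [mem_aU, mem_cpart, mem_cpart, mem_cpart, mem_fib]
  simp only [Pi.sub_apply]
  constructor
  · rintro ⟨⟨h1, h2⟩, h3, -⟩
    exact ⟨⟨h1, h3⟩, h2⟩
  · rintro ⟨⟨h1, h3⟩, h2⟩
    refine ⟨⟨h1, h2⟩, h3, ?_⟩
    rw [hU, h2]
    linarith

/-- Margins and central value of the sum of two tables with complementary values at a cell. -/
theorem add_mem_cell {p : Fin m} {q : Fin n} {w w' : ℤ} {U : Mat m n}
    (hU : U ∈ cpart (slc lo hi r c) p q w + cpart (slc lo hi r c) p q w') :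
    (rowSum U = 2 • r ∧ colSum U = 2 • c) ∧ U p q = w + w' := by
  obtain ⟨x, hx, y, hy, rfl⟩ := mem_add.1 hU
  have hx' := mem_cpart.1 hx
  have hy' := mem_cpart.1 hy
  refine ⟨margins_of_mem_add (add_mem_add hx'.1 hy'.1), ?_⟩
  simp only [Pi.add_apply]
  rw [hx'.2, hy'.2]

/-- No cost per level: the difference of the means at a binary cell of a central slice. -/
theorem mean_diff (g : Mat m n → ℝ) (hlo : 0 ≤ lo) (hC : Central lo hi r c) (p : Fin m) (q : Fin n)
    (hbin : hi p q = lo p q + 1) :
    (∑ x ∈ cpart (slc lo hi r c) p q (lo p q), g x -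
        ∑ y ∈ cpart (slc lo hi r c) p q (hi p q), g y) ^ 2 ≤
      (m : ℝ) * ((cpart (slc lo hi r c) p q (lo p q)).card : ℝ) * DD g lo hi r c := by
  classical
  induction hf : (slc lo hi r c).card using Nat.strong_induction_on generalizing lo hi with
  | _ f ih =>
    set F := slc lo hi r c with hF
    set T := lo + hi with hT
    have hTpq : T p q = lo p q + hi p q := rfl
    set A := cpart F p q (lo p q) with hA
    set B := cpart F p q (hi p q) with hB
    have hDD := sA_DD_nonneg g lo hi r c
    have hm0 : (0 : ℝ) ≤ m := Nat.cast_nonneg m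
    have hBA : B.card = A.card := by
      have h1 := card_cpart_slc_eq hC p q (lo p q)
      have h2 : (lo + hi) p q - lo p q = hi p q := by
        simp only [Pi.add_apply]; ring
      rw [h2] at h1
      exact h1
    have hTm : ∀ x ∈ F, T - x ∈ F := fun x hx => mirror_slc hC hx
    rcases Nat.lt_or_ge A.card 1 with h0 | h1
    · have hAe : A = ∅ := card_eq_zero.1 (by omega)
      have hBe : B = ∅ := card_eq_zero.1 (by omega)
      rw [hAe, hBe]
      simp
    rcases Nat.lt_or_ge A.card 2 with h1' | h2
    · -- two points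
      have hA1 : A.card = 1 := by omega
      have hB1 : B.card = 1 := by omega
      obtain ⟨x, hx⟩ := card_eq_one.1 hA1
      obtain ⟨y, hy⟩ := card_eq_one.1 hB1
      have hxA : x ∈ A := by rw [hx]; simp
      have hyB : y ∈ B := by rw [hy]; simp
      have hx1 := mem_cpart.1 hxA
      have hy1 := mem_cpart.1 hyB
      have hne : x ≠ y := by
        intro h
        rw [h] at hx1
        have := hx1.2
        rw [hy1.2, hbin] at this
        omega
      have hFeq : F = {x, y} := by
        ext X
        simp only [mem_insert, mem_singleton]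
        constructor
        · intro hX
          have hXb := (mem_slc.1 hX).1 p q
          have hval : X p q = lo p q ∨ X p q = hi p q := by omega
          rcases hval with hv | hv
          · left
            have : X ∈ A := mem_cpart.2 ⟨hX, hv⟩
            rw [hx] at this
            simpa using this
          · right
            have : X ∈ B := mem_cpart.2 ⟨hX, hv⟩
            rw [hy] at this
            simpa using this
        · rintro (rfl | rfl)
          · exact hx1.1
          · exact hy1.1
      have ht := two_point g hlo hne hFeq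
      rw [hx, hy]
      simp only [sum_singleton, card_singleton, Nat.cast_one, mul_one]
      exact ht
    -- the main case
    set P := A.card with hP
    have hPr : (2 : ℝ) ≤ P := by exact_mod_cast h2
    have hPpos : (0 : ℝ) < P := by linarith
    have hB' : (B.card : ℝ) = P := by exact_mod_cast hBA
    have hFne : F.Nonempty := by
      obtain ⟨x, hx⟩ := card_pos.1 (by omega : 0 < A.card)
      exact ⟨x, (mem_cpart.1 hx).1⟩
    have hww : lo p q + hi p q = lo p q + hi p q := rfl
    set D := ∑ x ∈ A, g x - ∑ y ∈ B, g y with hD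
    have hcs := pair_fibre_cs A B g
    have hlhs : ((B.card : ℝ) * ∑ x ∈ A, g x - (A.card : ℝ) * ∑ y ∈ B, g y) ^ 2 =
        (P : ℝ) ^ 2 * D ^ 2 := by
      rw [hB', hD]
      ring
    rw [hlhs, hB'] at hcs
    have hcs' : D ^ 2 ≤ ∑ U ∈ A + B, dU A B g U ^ 2 / ((aU A B U).card : ℝ) := by
      have hP2 : (0 : ℝ) < (P : ℝ) * P := by positivity
      have : (P : ℝ) * P * D ^ 2 ≤ (P : ℝ) * P *
          ∑ U ∈ A + B, dU A B g U ^ 2 / ((aU A B U).card : ℝ) := by
        calc (P : ℝ) * P * D ^ 2 = (P : ℝ) ^ 2 * D ^ 2 := by ring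
          _ ≤ _ := hcs
      exact le_of_mul_le_mul_left this hP2
    -- the centre of the sum
    obtain ⟨X₀, hX₀⟩ := card_pos.1 (by omega : 0 < A.card)
    have hX₀1 := mem_cpart.1 hX₀
    have hTmem : T ∈ A + B := by
      refine mem_add.2 ⟨X₀, hX₀, T - X₀, mem_cpart.2 ⟨hTm _ hX₀1.1, ?_⟩, by abel⟩
      simp only [Pi.sub_apply]
      rw [hX₀1.2, hTpq]
      ring
    have hAT : aU A B T = A := by
      have h3 := aU_cpart (r := r) (c := c) (lo := lo) (hi := hi) (p := p) (q := q) (U := T) hTpq
        (lo p q) (hi p q) hww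
      rw [← hF, ← hA, ← hB] at h3
      rw [h3, fib_self_central F T hTm]
    have hBT : aU B A T = B := by
      have h3 := aU_cpart (r := r) (c := c) (lo := lo) (hi := hi) (p := p) (q := q) (U := T) hTpq
        (hi p q) (lo p q) (by ring)
      rw [← hF, ← hA, ← hB] at h3
      rw [h3, fib_self_central F T hTm]
    have hdT : dU A B g T = D := by
      unfold dU
      rw [hAT, hBT]
    rw [← add_sum_erase _ _ hTmem, hdT, hAT] at hcs'
    -- the inductive hypothesis on each fibre
    have hfib : ∀ U ∈ (A + B).erase T, dU A B g U ^ 2 / ((aU A B U).card : ℝ) ≤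
        (m : ℝ) * DD g (loF lo hi U) (hiF lo hi U) r c := by
      intro U hU
      have hU' : U ∈ A + B := mem_of_mem_erase hU
      have hUT : U ≠ T := ne_of_mem_erase hU
      obtain ⟨hmarg, hUpq⟩ := add_mem_cell hU'
      have hfib : fib F U = slc (loF lo hi U) (hiF lo hi U) r c := fib_slc hmarg
      have hcen := central_fib (lo := lo) (hi := hi) hmarg
      have hlo' : 0 ≤ loF lo hi U := by
        intro i j
        exact le_trans (hlo i j) (le_max_left _ _)
      have hlt : (fib F U).card < f := by
        have hle : (fib F U).card ≤ F.card := card_filter_le _ _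
        rw [hf] at hle
        refine lt_of_le_of_ne hle ?_
        intro heq
        exact hUT (fib_card_eq F T hTm hFne U (by rw [heq, hf]))
      have hl := loF_cell (p := p) (q := q) (lo := lo) (hi := hi) hUpq
      have hh := hiF_cell (p := p) (q := q) (lo := lo) (hi := hi) hUpq
      have hI := ih (fib F U).card hlt hlo' hcen (by rw [hh, hl, hbin]) (by rw [hfib])
      rw [hl, hh, ← hfib] at hI
      have hAU : aU A B U = cpart (fib F U) p q (lo p q) := aU_cpart hUpq _ _ hww
      have hBU : aU B A U = cpart (fib F U) p q (hi p q) := aU_cpart hUpq _ _ (by ring)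
      have hdU : dU A B g U = ∑ x ∈ cpart (fib F U) p q (lo p q), g x -
          ∑ y ∈ cpart (fib F U) p q (hi p q), g y := by
        unfold dU
        rw [hAU, hBU]
      have hcpos : (0 : ℝ) < ((aU A B U).card : ℝ) := by exact_mod_cast card_aU_pos hU'
      rw [div_le_iff₀ hcpos, hdU, hAU]
      rw [hAU] at hcpos
      calc _ ≤ _ := hI
        _ = _ := by ring
    -- the exchange
    have hex : ∑ U ∈ (A + B).erase T, DD g (loF lo hi U) (hiF lo hi U) r c ≤
        ((P : ℝ) - 1) * DD g lo hi r c := by
      rw [exch g lo hi r c _ (fun U hU => (add_mem_cell (mem_of_mem_erase hU)).1)]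
      unfold DD
      simp only [mul_sum]
      refine sum_le_sum fun a _ => sum_le_sum fun b _ => sum_le_sum fun V hV => ?_
      rw [mul_comm]
      refine mul_le_mul_of_nonneg_right ?_ (sA_kap_nonneg g a b V)
      have hVb : lo p q ≤ V p q ∧ V p q ≤ hi p q := by
        have := hV; unfold nearM at this; rw [mem_slc] at this; exact this.1 p q
      have hcount : (((A + B).erase T).filter fun U => U - V ∈ nearP lo hi r c a b).card + 1 ≤
          (cpart (nearP lo hi r c a b) p q (T p q - V p q)).card := by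
        have hTV : T - V ∈ cpart (nearP lo hi r c a b) p q (T p q - V p q) :=
          mem_cpart.2 ⟨mirror_nearM hC hV, rfl⟩
        rw [← card_erase_add_one hTV]
        refine Nat.add_le_add_right ?_ 1
        refine card_le_card_of_injOn (fun U => U - V) ?_ ?_
        · intro U hU
          have hU' := mem_filter.1 (mem_coe.1 hU)
          have hU1 := mem_erase.1 hU'.1
          obtain ⟨-, hUpq⟩ := add_mem_cell hU1.2
          refine mem_coe.2 (mem_erase.2 ⟨?_, mem_cpart.2 ⟨hU'.2, ?_⟩⟩)
          · intro h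
            apply hU1.1
            exact sub_left_injective h
          · simp only [Pi.sub_apply]
            rw [hUpq, hTpq]
        · intro x _ y _ h
          exact sub_left_injective h
      have hnear : (cpart (nearP lo hi r c a b) p q (T p q - V p q)).card ≤ P := by
        have hval : T p q - V p q = lo p q ∨ T p q - V p q = hi p q := by
          rw [hTpq]; omega
        rcases hval with hv | hv
        · rw [hv]
          exact card_near_part_le hC p q hbin a b (Or.inl rfl)
        · rw [hv]
          have := card_near_part_le (w := hi p q) hC p q hbin a b (Or.inr rfl)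
          rw [← hF, ← hB] at this
          omega
      have : (((A + B).erase T).filter fun U => U - V ∈ nearP lo hi r c a b).card + 1 ≤ P := by
        omega
      have h3 : ((((A + B).erase T).filter fun U => U - V ∈ nearP lo hi r c a b).card : ℝ) + 1 ≤ P := by
        exact_mod_cast this
      linarith
    -- assembling
    have h9 : D ^ 2 * (1 - 1 / (P : ℝ)) ≤ (m : ℝ) * ((P : ℝ) - 1) * DD g lo hi r c := by
      have h5 : ∑ U ∈ (A + B).erase T, dU A B g U ^ 2 / ((aU A B U).card : ℝ) ≤
          (m : ℝ) * (((P : ℝ) - 1) * DD g lo hi r c) := by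
        calc _ ≤ ∑ U ∈ (A + B).erase T, (m : ℝ) * DD g (loF lo hi U) (hiF lo hi U) r c :=
              sum_le_sum hfib
          _ = (m : ℝ) * ∑ U ∈ (A + B).erase T, DD g (loF lo hi U) (hiF lo hi U) r c := by
              rw [mul_sum]
          _ ≤ _ := mul_le_mul_of_nonneg_left hex hm0
      have h6 : D ^ 2 * (1 - 1 / (P : ℝ)) = D ^ 2 - D ^ 2 / (P : ℝ) := by
        field_simp
      rw [h6]
      calc D ^ 2 - D ^ 2 / (P : ℝ) ≤ _ := by linarith [hcs']
        _ ≤ _ := h5
        _ = _ := by ring
    have h10 : D ^ 2 * (1 - 1 / (P : ℝ)) ≤ ((m : ℝ) * P * DD g lo hi r c) * (1 - 1 / (P : ℝ)) := by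
      have h11 : ((m : ℝ) * P * DD g lo hi r c) * (1 - 1 / (P : ℝ)) =
          (m : ℝ) * ((P : ℝ) - 1) * DD g lo hi r c := by
        field_simp
      rw [h11]
      exact h9
    have hgap : 0 < 1 - 1 / (P : ℝ) := by
      have : 1 / (P : ℝ) < 1 := by
        rw [div_lt_one hPpos]
        linarith
      linarith
    exact le_of_mul_le_mul_right h10 hgap

end

end Vale.Agent.Lib.P328S
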