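import Vale.Agent.Lib.P328Q.BoxSlice

/-!
Near tables with a prescribed value at a binary cell, in a central slice: there are at most as many
as tables with this value.
-/

namespace Vale.Agent.Lib.P328S

open Finset Vale.Agent.Lib.P328Q
open scoped Pointwise

noncomputable section

variable {m n : ℕ} {lo hi U : Mat m n} {r : Fin m → ℤ} {c : Fin n → ℤ}

/-- The matrices of `F` with value `w` at the cell `(p, q)`. -/
def cpart (F : Finset (Mat m n)) (p : Fin m) (q : Fin n) (w : ℤ) : Finset (Mat m n) :=
  F.filter fun X => X p q = w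

theorem mem_cpart {F : Finset (Mat m n)} {p : Fin m} {q : Fin n} {w : ℤ} {X : Mat m n} :
    X ∈ cpart F p q w ↔ X ∈ F ∧ X p q = w := by
  simp [cpart]

theorem loF_cell {p : Fin m} {q : Fin n} (h : U p q = lo p q + hi p q) :
    loF lo hi U p q = lo p q := by
  simp [loF, h]

theorem hiF_cell {p : Fin m} {q : Fin n} (h : U p q = lo p q + hi p q) :
    hiF lo hi U p q = hi p q := by
  simp [hiF, h]

theorem card_cpart_nearM_eq (h : Central lo hi r c) (p : Fin m) (q : Fin n) (a : Fin m) (b : Fin n)
    (w : ℤ) :
    (cpart (nearM lo hi r c a b) p q ((lo + hi) p q - w)).card =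
      (cpart (nearP lo hi r c a b) p q w).card := by
  refine Finset.card_bij' (fun x _ => lo + hi - x) (fun x _ => lo + hi - x) ?_ ?_ ?_ ?_
  · intro x hx
    rw [mem_cpart] at hx ⊢
    refine ⟨mirror_nearM h hx.1, ?_⟩
    simp only [Pi.sub_apply] at hx ⊢
    rw [hx.2]
    simp
  · intro x hx
    rw [mem_cpart] at hx ⊢
    refine ⟨mirror_nearP h hx.1, ?_⟩
    simp only [Pi.sub_apply] at hx ⊢
    rw [hx.2]
  · intro x _; simp
  · intro x _; simp

theorem card_cpart_slc_eq (h : Central lo hi r c) (p : Fin m) (q : Fin n) (w : ℤ) :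
    (cpart (slc lo hi r c) p q ((lo + hi) p q - w)).card = (cpart (slc lo hi r c) p q w).card := by
  refine Finset.card_bij' (fun x _ => lo + hi - x) (fun x _ => lo + hi - x) ?_ ?_ ?_ ?_
  · intro x hx
    rw [mem_cpart] at hx ⊢
    refine ⟨mirror_slc h hx.1, ?_⟩
    simp only [Pi.sub_apply] at hx ⊢
    rw [hx.2]
    simp
  · intro x hx
    rw [mem_cpart] at hx ⊢
    refine ⟨mirror_slc h hx.1, ?_⟩
    simp only [Pi.sub_apply] at hx ⊢
    rw [hx.2]
  · intro x _; simp
  · intro x _; simp

/-- Pairs in two finsets, fibred by the sum. -/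
theorem sum_card_pair_fib {G : Type*} [AddCommGroup G] [DecidableEq G] (A B : Finset G)
    (P : G → Finset G) (hP : ∀ W ∈ A + B, ∀ x, x ∈ P W ↔ x ∈ A ∧ W - x ∈ B) :
    ∑ W ∈ A + B, (P W).card = A.card * B.card := by
  classical
  have hfib : ∀ W ∈ A + B, (P W).card = ((A ×ˢ B).filter fun p => p.1 + p.2 = W).card := by
    intro W hW
    refine Finset.card_bij' (fun x _ => (x, W - x)) (fun p _ => p.1) ?_ ?_ ?_ ?_
    · intro x hx
      rw [hP W hW] at hx
      simp [hx.1, hx.2]
    · intro p hp
      simp only [Finset.mem_filter, Finset.mem_product] at hp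
      rw [hP W hW]
      refine ⟨hp.1.1, ?_⟩
      have : W - p.1 = p.2 := by rw [← hp.2]; abel
      rw [this]; exact hp.1.2
    · intro x _; rfl
    · intro p hp
      simp only [Finset.mem_filter, Finset.mem_product] at hp
      have : W - p.1 = p.2 := by rw [← hp.2]; abel
      ext1 <;> simp [this]
  rw [Finset.sum_congr rfl hfib, ← Finset.card_product]
  exact (Finset.card_eq_sum_card_fiberwise (fun p hp => by
    rw [Finset.mem_coe, Finset.mem_product] at hp
    exact Finset.mem_coe.mpr (Finset.add_mem_add hp.1 hp.2))).symm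

/-- The count of near tables with a prescribed value at a binary cell. -/
theorem card_near_part_le (h : Central lo hi r c) (p : Fin m) (q : Fin n)
    (hbin : hi p q = lo p q + 1) (a : Fin m) (b : Fin n) {w : ℤ}
    (hw : w = lo p q ∨ w = hi p q) :
    (cpart (nearP lo hi r c a b) p q w).card ≤ (cpart (slc lo hi r c) p q w).card := by
  classical
  induction hk : (box lo hi).card using Nat.strong_induction_on generalizing lo hi with
  | _ k ih =>
    set T := lo + hi with hT
    set w' := T p q - w with hw'
    have hTpq : T p q = lo p q + hi p q := rfl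
    set NM := cpart (nearM lo hi r c a b) p q w' with hNM
    set NP := cpart (nearP lo hi r c a b) p q w with hNP
    set F := slc lo hi r c with hF
    set F₁ := cpart F p q w with hF₁
    set F₂ := cpart F p q w' with hF₂
    have hcardMP : NM.card = NP.card := card_cpart_nearM_eq h p q a b w
    have hcardF : F₂.card = F₁.card := card_cpart_slc_eq h p q w
    rcases NM.eq_empty_or_nonempty with hemp | ⟨V₀, hV₀⟩
    · rw [← hcardMP, hemp]; simp
    have hV₀' := (mem_cpart.1 hV₀).1
    have hFne : F.Nonempty := slc_nonempty_of_nearM h hV₀'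
    have hF₁ne : F₁.Nonempty := by
      obtain ⟨X, hX⟩ := hFne
      have hXb := (mem_slc.1 hX).1 p q
      have hval : X p q = w ∨ X p q = w' := by
        rw [hw', hTpq]
        rcases hw with hw | hw <;> rw [hw] <;> omega
      rcases hval with hv | hv
      · exact ⟨X, mem_cpart.2 ⟨hX, hv⟩⟩
      · refine ⟨T - X, mem_cpart.2 ⟨mirror_slc h hX, ?_⟩⟩
        simp only [Pi.sub_apply]
        rw [hv, hw']
        ring
    have hpairs : ∑ W ∈ NM + NP, (cpart (nearM (loF lo hi W) (hiF lo hi W) r c a b) p q w').card =
        NM.card * NP.card := by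
      refine sum_card_pair_fib NM NP _ ?_
      intro W hW x
      obtain ⟨V, hV, E, hE, rfl⟩ := Finset.mem_add.mp hW
      have hV1 := mem_cpart.1 hV
      have hE1 := mem_cpart.1 hE
      have hmarg := margins_of_near hV1.1 hE1.1
      have hWpq : (V + E) p q = T p q := by
        simp only [Pi.add_apply]
        rw [hV1.2, hE1.2, hw']
        ring
      rw [mem_cpart, mem_nearM_fib hmarg, hNM, hNP, mem_cpart, mem_cpart]
      constructor
      · rintro ⟨⟨h1, h2⟩, h3⟩
        refine ⟨⟨h1, h3⟩, h2, ?_⟩
        simp only [Pi.sub_apply]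
        rw [hWpq, h3, hw']
        ring
      · rintro ⟨⟨h1, h3⟩, h2, -⟩
        exact ⟨⟨h1, h2⟩, h3⟩
    have hFpairs : ∑ W ∈ F₁ + F₂, (cpart (fib F W) p q w).card = F₁.card * F₂.card := by
      refine sum_card_pair_fib F₁ F₂ _ ?_
      intro W hW x
      obtain ⟨X, hX, Y, hY, rfl⟩ := Finset.mem_add.mp hW
      have hX1 := mem_cpart.1 hX
      have hY1 := mem_cpart.1 hY
      have hWpq : (X + Y) p q = T p q := by
        simp only [Pi.add_apply]
        rw [hX1.2, hY1.2, hw']
        ring
      rw [mem_cpart, mem_fib, hF₁, hF₂, mem_cpart, mem_cpart]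
      constructor
      · rintro ⟨⟨h1, h2⟩, h3⟩
        refine ⟨⟨h1, h3⟩, h2, ?_⟩
        simp only [Pi.sub_apply]
        rw [hWpq, h3]
      · rintro ⟨⟨h1, h3⟩, h2, -⟩
        exact ⟨⟨h1, h2⟩, h3⟩
    -- term by term
    have hterm : ∀ W ∈ NM + NP, W ≠ T →
        (cpart (nearM (loF lo hi W) (hiF lo hi W) r c a b) p q w').card ≤
          (cpart (fib F W) p q w).card := by
      intro W hW hne
      obtain ⟨V, hV, E, hE, rfl⟩ := Finset.mem_add.mp hW
      have hV1 := mem_cpart.1 hV
      have hE1 := mem_cpart.1 hE
      have hmarg := margins_of_near hV1.1 hE1.1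
      have hWpq : (V + E) p q = lo p q + hi p q := by
        simp only [Pi.add_apply]
        rw [hV1.2, hE1.2, hw', hTpq]
        ring
      have hVb : ∀ i j, lo i j ≤ V i j ∧ V i j ≤ hi i j := by
        have := hV1.1; unfold nearM at this; rw [mem_slc] at this; exact this.1
      have hlt := box_fib_card_lt hVb hne
      have hC := central_fib (lo := lo) (hi := hi) hmarg
      have hlo' := loF_cell (p := p) (q := q) (lo := lo) (hi := hi) hWpq
      have hhi' := hiF_cell (p := p) (q := q) (lo := lo) (hi := hi) hWpq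
      have h1 := ih _ (hk ▸ hlt) hC (by rw [hhi', hlo', hbin])
        (by rw [hlo', hhi']; exact hw) rfl
      have h2 := card_cpart_nearM_eq hC p q a b w
      have h3 : (loF lo hi (V + E) + hiF lo hi (V + E)) p q - w = w' := by
        rw [loF_add_hiF, hWpq, hw', hTpq]
      rw [h3] at h2
      rw [h2, hF, fib_slc hmarg]
      exact h1
    obtain ⟨X₀, hX₀⟩ := hF₁ne
    have hX₀1 := mem_cpart.1 hX₀
    have hTmem : T ∈ F₁ + F₂ := by
      refine Finset.mem_add.mpr ⟨X₀, hX₀, T - X₀, mem_cpart.2 ⟨mirror_slc h hX₀1.1, ?_⟩, by abel⟩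
      simp only [Pi.sub_apply]
      rw [hX₀1.2]
    have hfibT : cpart (fib F T) p q w = F₁ := by
      rw [fib_self_central F T (fun x hx => mirror_slc h hx)]
    have hsumF : ∑ W ∈ (F₁ + F₂).erase T, (cpart (fib F W) p q w).card + F₁.card =
        F₁.card * F₂.card := by
      rw [← hFpairs, ← Finset.sum_erase_add _ _ hTmem, hfibT]
    have hzero : ∀ W, W p q = T p q → W ∉ F₁ + F₂ → cpart (fib F W) p q w = ∅ := by
      intro W hWpq hW
      rw [Finset.eq_empty_iff_forall_notMem]
      intro x hx
      rw [mem_cpart, mem_fib] at hx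
      apply hW
      refine Finset.mem_add.mpr ⟨x, mem_cpart.2 ⟨hx.1.1, hx.2⟩, W - x,
        mem_cpart.2 ⟨hx.1.2, ?_⟩, by abel⟩
      simp only [Pi.sub_apply]
      rw [hWpq, hx.2]
    have hWcell : ∀ W ∈ NM + NP, W p q = T p q := by
      intro W hW
      obtain ⟨V, hV, E, hE, rfl⟩ := Finset.mem_add.mp hW
      simp only [Pi.add_apply]
      rw [(mem_cpart.1 hV).2, (mem_cpart.1 hE).2, hw']
      ring
    have hbound : ∑ W ∈ NM + NP, (cpart (nearM (loF lo hi W) (hiF lo hi W) r c a b) p q w').card ≤
        NM.card + ∑ W ∈ (F₁ + F₂).erase T, (cpart (fib F W) p q w).card := by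
      calc ∑ W ∈ NM + NP, (cpart (nearM (loF lo hi W) (hiF lo hi W) r c a b) p q w').card
          = ∑ W ∈ (NM + NP).filter (· = T),
              (cpart (nearM (loF lo hi W) (hiF lo hi W) r c a b) p q w').card
            + ∑ W ∈ (NM + NP).filter (· ≠ T),
              (cpart (nearM (loF lo hi W) (hiF lo hi W) r c a b) p q w').card := by
            rw [Finset.sum_filter_add_sum_filter_not]
        _ ≤ NM.card + ∑ W ∈ (F₁ + F₂).erase T, (cpart (fib F W) p q w).card := by
            refine add_le_add ?_ ?_
            · have hsub : (NM + NP).filter (· = T) ⊆ {T} := by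
                intro W hW
                simp only [Finset.mem_filter] at hW
                simp [hW.2]
              refine (Finset.sum_le_sum_of_subset hsub).trans ?_
              simp only [Finset.sum_singleton]
              rw [hT, loF_center, hiF_center]
            · calc ∑ W ∈ (NM + NP).filter (· ≠ T),
                    (cpart (nearM (loF lo hi W) (hiF lo hi W) r c a b) p q w').card
                  ≤ ∑ W ∈ (NM + NP).filter (· ≠ T), (cpart (fib F W) p q w).card := by
                    refine Finset.sum_le_sum fun W hW => ?_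
                    simp only [Finset.mem_filter] at hW
                    exact hterm W hW.1 hW.2
                _ = ∑ W ∈ ((NM + NP).filter (· ≠ T)).filter (· ∈ F₁ + F₂),
                      (cpart (fib F W) p q w).card := by
                    refine (Finset.sum_filter_of_ne fun W hW' hW => ?_).symm
                    by_contra hcon
                    simp only [Finset.mem_filter] at hW'
                    exact hW (by rw [hzero W (hWcell W hW'.1) hcon]; rfl)
                _ ≤ ∑ W ∈ (F₁ + F₂).erase T, (cpart (fib F W) p q w).card := by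
                    refine Finset.sum_le_sum_of_subset ?_
                    intro W hW
                    simp only [Finset.mem_filter] at hW
                    exact Finset.mem_erase.mpr ⟨hW.1.2, hW.2⟩
    rw [hpairs] at hbound
    have hn1 : 1 ≤ NM.card := Finset.card_pos.mpr ⟨V₀, hV₀⟩
    have hf1 : 1 ≤ F₁.card := Finset.card_pos.mpr ⟨X₀, hX₀⟩
    rw [hcardF] at hsumF
    rw [← hcardMP] at hbound ⊢
    by_contra hlt
    push Not at hlt
    nlinarith

end

end Vale.Agent.Lib.P328S
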