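import Mathlib

/-!
The explicit constant in the Poincare inequality for the `2 x 2` moves on contingency tables.
-/

namespace Vale.Agent.Lib.P328S

/-- `gapQ m n M = 2 m ^ 2 n M ^ 2 (1 + m n + (m n) ^ 2)`. -/
noncomputable def gapQ (m n M : ℕ) : ℝ :=
  2 * (m : ℝ) ^ 2 * (n : ℝ) * (M : ℝ) ^ 2 * (1 + (m : ℝ) * n + ((m : ℝ) * n) ^ 2)

end Vale.Agent.Lib.P328S
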