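import Vale.Agent.Lib.P328S.Defs
import Vale.Agent.Lib.P328S.Cells
import Vale.Agent.Lib.P328Q.Bridge
import Vale.Agent.Lib.P328Q.Mixing

/-!
The Poincare inequality on natural number tables, with a constant polynomial in `m`, `n` and the largest cell value.
-/

namespace Vale.Agent.Lib.P328S

open Finset Vale.Agent.Lib.P328 Vale.Agent.Lib.P328Q

noncomputable section

variable {m n : ℕ}

open Classical in
theorem gap_Om (r : Fin m → ℤ) (c : Fin n → ℤ) (M : ℕ) (hM : ∀ i j, min (r i) (c j) + 1 ≤ (M : ℤ))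
    (g : Mat m n → ℝ) :
    wv (Om r c) g ≤
      (((m : ℝ) * n) * (4 * (M : ℝ) ^ 2 * (m : ℝ) * (1 + (m : ℝ) * n + ((m : ℝ) * n) ^ 2))) *
        ((Om r c).card : ℝ) * Dir g r c := by
  have hS : StairBox (fun _ _ => True) (0 : Mat m n) (bigHi r) (∑ i, |r i|) := by
    refine ⟨fun _ _ h => absurd trivial h, fun _ _ _ => ⟨rfl, rfl⟩, le_refl _, fun _ _ _ _ _ _ => trivial,
      fun _ _ _ _ _ => trivial⟩
  have hB : ∀ i, r i ≤ ∑ i, |r i| := by
    intro i
    calc r i ≤ |r i| := le_abs_self _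
      _ ≤ _ := Finset.single_le_sum (f := fun i => |r i|) (fun _ _ => abs_nonneg _) (mem_univ i)
  have hcard : (univ.filter fun x : Fin m × Fin n => True).card = m * n := by
    simp
  have h := stair_poincare (r := r) (c := c) g (∑ i, |r i|) hB M hM (m * n) _ _ _ hS (by convert hcard)
  have hDD := sum_kap_le_Dir g r c
  have hcoef : 0 ≤ (((m * n : ℕ) : ℝ) * (4 * (M : ℝ) ^ 2 * (m : ℝ) * (1 + (m : ℝ) * n + ((m : ℝ) * n) ^ 2))) *
      ((Om r c).card : ℝ) := by positivity
  have h2 := h.trans (mul_le_mul_of_nonneg_left hDD hcoef)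
  push_cast at h2
  exact h2

/-- The Poincare inequality on natural number tables. -/
theorem gap_nat (r : Fin m → ℕ) (c : Fin n → ℕ) (M : ℕ) (hcell : ∀ i j, min (r i) (c j) + 1 ≤ M)
    (g : Tb m (Fin n) → ℝ) :
    tabVar r c g ≤ gapQ m n M * tabDir r c g := by
  classical
  have hcellZ : ∀ i j, min (brR r i) (brC c j) + 1 ≤ (M : ℤ) := by
    intro i j
    have := hcell i j
    simp only [brR, brC]
    exact_mod_cast this
  have hP := gap_Om (brR r) (brC c) M hcellZ (fun Y => g (brBack Y))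
  rw [br_wv, br_Dir, br_card, br_double_sum] at hP
  set N : ℝ := ((Tab r c).card : ℝ) with hN
  set S1 := ∑ x ∈ Tab r c, g x ^ 2 with hS1
  set S2 := ∑ x ∈ Tab r c, g x with hS2
  set D := ∑ x ∈ Tab r c, ∑ i : Fin m, ∑ k : Fin m, ∑ j : Fin n, ∑ l : Fin n,
        if dgValid i k j l x then (g x - g (dgMove i k j l x)) ^ 2 else 0 with hD
  have hvar : tabVar r c g = S1 / N - (S2 / N) ^ 2 := rfl
  have hdir : tabDir r c g = D / N := rfl
  rw [hvar, hdir]
  rcases Nat.eq_zero_or_pos (Tab r c).card with h0 | hpos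
  · have hN0 : N = 0 := by rw [hN, h0]; simp
    rw [hN0]
    simp
  · have hNpos : 0 < N := by rw [hN]; exact_mod_cast hpos
    have hkey : S1 / N - (S2 / N) ^ 2 = (2 * N * S1 - 2 * S2 ^ 2) / (2 * N ^ 2) := by
      field_simp
    rw [hkey, div_le_iff₀ (by positivity)]
    have h4 : gapQ m n M * (D / N) * (2 * N ^ 2) = gapQ m n M * (2 * N * D) := by
      field_simp
    rw [h4]
    unfold gapQ
    calc 2 * N * S1 - 2 * S2 ^ 2 ≤ _ := hP
      _ = _ := by ring

end

end Vale.Agent.Lib.P328S
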