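import Mathlib

/-!
The law of total variance in the form of sums over pairs, and a one-dimensional Poincare inequality for
unimodal weights on an interval of the integers.
-/

namespace Vale.Agent.Lib.P328S

open Finset

noncomputable section

theorem tele (G : ℕ → ℝ) {u v : ℕ} (h : u ≤ v) :
    G u - G v = ∑ x ∈ Ico u v, (G x - G (x + 1)) := by
  induction v, h using Nat.le_induction with
  | base => simp
  | succ v h ih =>
    rw [Finset.sum_Ico_succ_top h, ← ih]
    ring

theorem sq_diff_le (G : ℕ → ℝ) {W u v : ℕ} (h : u ≤ v) (hv : v < W) :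
    (G u - G v) ^ 2 ≤ (W : ℝ) * ∑ x ∈ range (W - 1),
      if u ≤ x ∧ x < v then (G x - G (x + 1)) ^ 2 else 0 := by
  rw [tele G h]
  have h1 := sq_sum_le_card_mul_sum_sq (s := Ico u v) (f := fun x => G x - G (x + 1))
  have h2 : (((Ico u v).card : ℕ) : ℝ) ≤ W := by
    rw [Nat.card_Ico]
    exact_mod_cast (by omega : v - u ≤ W)
  have h3 : ∑ x ∈ Ico u v, (G x - G (x + 1)) ^ 2 = ∑ x ∈ range (W - 1),
      if u ≤ x ∧ x < v then (G x - G (x + 1)) ^ 2 else 0 := by
    rw [← sum_filter]
    refine sum_congr ?_ fun _ _ => rfl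
    ext x
    simp only [mem_Ico, mem_filter, mem_range]
    omega
  rw [← h3]
  refine h1.trans ?_
  exact mul_le_mul_of_nonneg_right h2 (sum_nonneg fun _ _ => sq_nonneg _)

/-- The one-dimensional Poincare inequality. -/
theorem one_dim (W : ℕ) (N G : ℕ → ℝ) (hN : ∀ v, 0 ≤ N v)
    (hmono : ∀ x, x + 1 < W → (∀ u, u ≤ x → N u ≤ min (N x) (N (x + 1))) ∨
      (∀ v, x < v → v < W → N v ≤ min (N x) (N (x + 1)))) :
    ∑ u ∈ range W, ∑ v ∈ range W, N u * N v * (G u - G v) ^ 2 ≤
      2 * (W : ℝ) ^ 2 * (∑ v ∈ range W, N v) *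
        ∑ x ∈ range (W - 1), min (N x) (N (x + 1)) * (G x - G (x + 1)) ^ 2 := by
  classical
  set d : ℕ → ℝ := fun x => (G x - G (x + 1)) ^ 2 with hd
  have hd0 : ∀ x, 0 ≤ d x := fun x => sq_nonneg _
  have hW0 : (0 : ℝ) ≤ W := Nat.cast_nonneg W
  -- pointwise bound
  have hpt : ∀ u ∈ range W, ∀ v ∈ range W, (G u - G v) ^ 2 ≤ (W : ℝ) * ∑ x ∈ range (W - 1),
      ((if u ≤ x ∧ x < v then d x else 0) + (if v ≤ x ∧ x < u then d x else 0)) := by
    intro u hu v hv
    rw [sum_add_distrib, mul_add]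
    have hu' := mem_range.1 hu
    have hv' := mem_range.1 hv
    have hnn1 : 0 ≤ (W : ℝ) * ∑ x ∈ range (W - 1), (if u ≤ x ∧ x < v then d x else 0) :=
      mul_nonneg hW0 (sum_nonneg fun x _ => by split_ifs <;> simp [hd0])
    have hnn2 : 0 ≤ (W : ℝ) * ∑ x ∈ range (W - 1), (if v ≤ x ∧ x < u then d x else 0) :=
      mul_nonneg hW0 (sum_nonneg fun x _ => by split_ifs <;> simp [hd0])
    rcases le_total u v with h | h
    · have := sq_diff_le G h hv'
      linarith
    · have := sq_diff_le G h hu'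
      have h2 : (G u - G v) ^ 2 = (G v - G u) ^ 2 := by ring
      rw [h2]
      linarith
  -- low and high parts
  set L : ℕ → ℝ := fun x => ∑ u ∈ range W, if u ≤ x then N u else 0 with hL
  set H : ℕ → ℝ := fun x => ∑ v ∈ range W, if x < v then N v else 0 with hH
  set Tot := ∑ v ∈ range W, N v with hTot
  have hTot0 : 0 ≤ Tot := sum_nonneg fun v _ => hN v
  have hL0 : ∀ x, 0 ≤ L x := fun x => sum_nonneg fun u _ => by split_ifs <;> simp [hN]
  have hH0 : ∀ x, 0 ≤ H x := fun x => sum_nonneg fun u _ => by split_ifs <;> simp [hN]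
  have hLT : ∀ x, L x ≤ Tot := fun x => sum_le_sum fun u _ => by
    split_ifs
    · exact le_refl _
    · exact hN u
  have hHT : ∀ x, H x ≤ Tot := fun x => sum_le_sum fun u _ => by
    split_ifs
    · exact le_refl _
    · exact hN u
  have hLH : ∀ x ∈ range (W - 1), L x * H x ≤ (W : ℝ) * Tot * min (N x) (N (x + 1)) := by
    intro x hx
    have hx' := mem_range.1 hx
    have hmin0 : 0 ≤ min (N x) (N (x + 1)) := le_min (hN _) (hN _)
    rcases hmono x (by omega) with h | h
    · have h1 : L x ≤ (W : ℝ) * min (N x) (N (x + 1)) := by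
        calc L x ≤ ∑ _u ∈ range W, min (N x) (N (x + 1)) := sum_le_sum fun u _ => by
              split_ifs with hu
              · exact h u hu
              · exact hmin0
          _ = _ := by simp
      calc L x * H x ≤ ((W : ℝ) * min (N x) (N (x + 1))) * Tot :=
            mul_le_mul h1 (hHT x) (hH0 x) (by positivity)
        _ = _ := by ring
    · have h1 : H x ≤ (W : ℝ) * min (N x) (N (x + 1)) := by
        calc H x ≤ ∑ _u ∈ range W, min (N x) (N (x + 1)) := sum_le_sum fun u hu => by
              split_ifs with hu'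
              · exact h u hu' (mem_range.1 hu)
              · exact hmin0
          _ = _ := by simp
      calc L x * H x ≤ Tot * ((W : ℝ) * min (N x) (N (x + 1))) :=
            mul_le_mul (hLT x) h1 (hH0 x) hTot0
        _ = _ := by ring
  -- the pair sums
  have hpair : ∀ x, ∑ u ∈ range W, ∑ v ∈ range W,
      N u * N v * ((if u ≤ x ∧ x < v then d x else 0) + (if v ≤ x ∧ x < u then d x else 0)) =
      2 * (L x * H x) * d x := by
    intro x
    have h1 : ∑ u ∈ range W, ∑ v ∈ range W, N u * N v * (if u ≤ x ∧ x < v then d x else 0) =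
        L x * H x * d x := by
      simp only [hL, hH]
      rw [sum_mul, sum_mul]
      refine sum_congr rfl fun u _ => ?_
      by_cases hu : u ≤ x
      · simp only [hu, if_true, true_and]
        rw [mul_sum, sum_mul] 
        refine sum_congr rfl fun v _ => ?_
        split_ifs <;> ring
      · simp [hu]
    have h2 : ∑ u ∈ range W, ∑ v ∈ range W, N u * N v * (if v ≤ x ∧ x < u then d x else 0) =
        L x * H x * d x := by
      rw [sum_comm, ← h1]
      refine sum_congr rfl fun u _ => sum_congr rfl fun v _ => ?_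
      ring
    simp only [mul_add, sum_add_distrib]
    rw [h1, h2]
    ring
  calc ∑ u ∈ range W, ∑ v ∈ range W, N u * N v * (G u - G v) ^ 2
      ≤ ∑ u ∈ range W, ∑ v ∈ range W, N u * N v * ((W : ℝ) * ∑ x ∈ range (W - 1),
          ((if u ≤ x ∧ x < v then d x else 0) + (if v ≤ x ∧ x < u then d x else 0))) := by
        refine sum_le_sum fun u hu => sum_le_sum fun v hv => ?_
        exact mul_le_mul_of_nonneg_left (hpt u hu v hv) (mul_nonneg (hN u) (hN v))
    _ = (W : ℝ) * ∑ x ∈ range (W - 1), ∑ u ∈ range W, ∑ v ∈ range W,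
          N u * N v * ((if u ≤ x ∧ x < v then d x else 0) + (if v ≤ x ∧ x < u then d x else 0)) := by
        calc _ = ∑ u ∈ range W, ∑ v ∈ range W, (W : ℝ) * ∑ x ∈ range (W - 1), N u * N v *
              ((if u ≤ x ∧ x < v then d x else 0) + (if v ≤ x ∧ x < u then d x else 0)) := by
              refine sum_congr rfl fun u _ => sum_congr rfl fun v _ => ?_
              rw [mul_left_comm, mul_sum]
          _ = (W : ℝ) * ∑ u ∈ range W, ∑ v ∈ range W, ∑ x ∈ range (W - 1), N u * N v *
              ((if u ≤ x ∧ x < v then d x else 0) + (if v ≤ x ∧ x < u then d x else 0)) := by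
              simp only [mul_sum]
          _ = _ := by
              congr 1
              exact (sum_congr rfl fun u _ => sum_comm).trans sum_comm
    _ = (W : ℝ) * ∑ x ∈ range (W - 1), 2 * (L x * H x) * d x := by
        simp only [hpair]
    _ ≤ (W : ℝ) * ∑ x ∈ range (W - 1), 2 * ((W : ℝ) * Tot * min (N x) (N (x + 1))) * d x := by
        refine mul_le_mul_of_nonneg_left (sum_le_sum fun x hx => ?_) hW0
        exact mul_le_mul_of_nonneg_right (by linarith [hLH x hx]) (hd0 x)
    _ = (W : ℝ) * ∑ x ∈ range (W - 1), (2 * (W : ℝ) * Tot) * (min (N x) (N (x + 1)) * d x) := by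
        congr 1
        refine sum_congr rfl fun x _ => ?_
        ring
    _ = (W : ℝ) * ((2 * (W : ℝ) * Tot) * ∑ x ∈ range (W - 1), min (N x) (N (x + 1)) * d x) := by
        rw [← mul_sum]
    _ = _ := by ring

theorem dsum_eq {α : Type*} (F : Finset α) (g : α → ℝ) :
    ∑ x ∈ F, ∑ y ∈ F, (g x - g y) ^ 2 =
      2 * (F.card : ℝ) * ∑ x ∈ F, g x ^ 2 - 2 * (∑ x ∈ F, g x) ^ 2 := by
  have h1 : ∀ x ∈ F, ∑ y ∈ F, (g x - g y) ^ 2 =
      (F.card : ℝ) * g x ^ 2 - 2 * g x * (∑ y ∈ F, g y) + ∑ y ∈ F, g y ^ 2 := by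
    intro x _
    have : ∀ y ∈ F, (g x - g y) ^ 2 = g x ^ 2 - 2 * g x * g y + g y ^ 2 := by
      intro y _; ring
    rw [Finset.sum_congr rfl this, Finset.sum_add_distrib, Finset.sum_sub_distrib,
      Finset.sum_const, nsmul_eq_mul, Finset.mul_sum]
  rw [Finset.sum_congr rfl h1, Finset.sum_add_distrib, Finset.sum_sub_distrib, Finset.sum_const,
    nsmul_eq_mul, ← Finset.mul_sum, ← Finset.sum_mul, ← Finset.mul_sum]
  ring

theorem wsum_eq (I : Finset ℕ) (N G : ℕ → ℝ) :
    ∑ u ∈ I, ∑ v ∈ I, N u * N v * (G u - G v) ^ 2 =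
      2 * (∑ v ∈ I, N v) * (∑ v ∈ I, N v * G v ^ 2) - 2 * (∑ v ∈ I, N v * G v) ^ 2 := by
  have h1 : ∀ u ∈ I, ∑ v ∈ I, N u * N v * (G u - G v) ^ 2 =
      N u * G u ^ 2 * (∑ v ∈ I, N v) - 2 * (N u * G u) * (∑ v ∈ I, N v * G v) +
        N u * (∑ v ∈ I, N v * G v ^ 2) := by
    intro u _
    rw [mul_sum, mul_sum, mul_sum, ← sum_sub_distrib, ← sum_add_distrib]
    refine sum_congr rfl fun v _ => ?_
    ring
  rw [sum_congr rfl h1, sum_add_distrib, sum_sub_distrib, ← sum_mul, ← sum_mul, ← sum_mul]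
  have h2 : ∑ u ∈ I, 2 * (N u * G u) = 2 * ∑ u ∈ I, N u * G u := by rw [mul_sum]
  rw [h2]
  ring

/-- The law of total variance, in the form of sums over pairs. -/
theorem total_var {α : Type*} (F : Finset α) (κ : α → ℕ) (W : ℕ) (hκ : ∀ x ∈ F, κ x < W)
    (g : α → ℝ) (Fv : ℕ → Finset α) (hFv : ∀ v, Fv v = F.filter fun x => κ x = v)
    (Nv Gv : ℕ → ℝ) (hNv : ∀ v, Nv v = ((Fv v).card : ℝ))
    (hGv : ∀ v, Gv v = (∑ x ∈ Fv v, g x) / Nv v) :
    ∑ x ∈ F, ∑ y ∈ F, (g x - g y) ^ 2 =
      (F.card : ℝ) * ∑ v ∈ range W, (∑ x ∈ Fv v, ∑ y ∈ Fv v, (g x - g y) ^ 2) / Nv v +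
        ∑ u ∈ range W, ∑ v ∈ range W, Nv u * Nv v * (Gv u - Gv v) ^ 2 := by
  classical
  have hmaps : ∀ x ∈ F, κ x ∈ range W := fun x hx => mem_range.2 (hκ x hx)
  have hA2 : ∑ v ∈ range W, ∑ x ∈ Fv v, g x ^ 2 = ∑ x ∈ F, g x ^ 2 := by
    simp only [hFv]
    exact sum_fiberwise_of_maps_to hmaps _
  have hA1 : ∑ v ∈ range W, ∑ x ∈ Fv v, g x = ∑ x ∈ F, g x := by
    simp only [hFv]
    exact sum_fiberwise_of_maps_to hmaps _
  have hC : ∑ v ∈ range W, Nv v = (F.card : ℝ) := by
    simp only [hNv, hFv]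
    rw [← Nat.cast_sum]
    congr 1
    exact (card_eq_sum_card_fiberwise (fun x hx => mem_coe.2 (hmaps x (mem_coe.1 hx)))).symm
  have hNG : ∀ v, Nv v * Gv v = ∑ x ∈ Fv v, g x := by
    intro v
    rw [hGv]
    by_cases h : Nv v = 0
    · have : Fv v = ∅ := by
        rw [hNv] at h
        exact card_eq_zero.1 (by exact_mod_cast h)
      rw [this]
      simp
    · field_simp
  have hNG2 : ∀ v, (∑ x ∈ Fv v, ∑ y ∈ Fv v, (g x - g y) ^ 2) / Nv v =
      2 * ∑ x ∈ Fv v, g x ^ 2 - 2 * (Nv v * Gv v ^ 2) := by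
    intro v
    rw [dsum_eq, ← hNv, ← hNG]
    by_cases h : Nv v = 0
    · have : Fv v = ∅ := by
        rw [hNv] at h
        exact card_eq_zero.1 (by exact_mod_cast h)
      rw [this, h]
      simp
    · field_simp
  rw [dsum_eq, wsum_eq, hC, sum_congr rfl fun v _ => hNG2 v, sum_sub_distrib, ← mul_sum, ← mul_sum,
    hA2]
  simp only [hNG]
  rw [hA1]
  ring

/-- Log-concave weights without internal zeros are unimodal. -/
theorem mono_of_logconcave (N : ℕ → ℕ) (hlc : ∀ v, N v * N (v + 2) ≤ N (v + 1) ^ 2)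
    (hint : ∀ u v w, u ≤ v → v ≤ w → 0 < N u → 0 < N w → 0 < N v) (x : ℕ) :
    (∀ u, u ≤ x → N u ≤ min (N x) (N (x + 1))) ∨ (∀ v, x < v → N v ≤ min (N x) (N (x + 1))) := by
  by_cases hx : N x = 0
  · rw [hx, Nat.zero_min]
    by_cases hl : ∀ u, u ≤ x → N u = 0
    · left
      intro u hu
      rw [hl u hu]
    · right
      intro v hv
      push Not at hl
      obtain ⟨u, hu, hu0⟩ := hl
      by_contra hcon
      have := hint u x v hu (by omega) (Nat.pos_of_ne_zero hu0) (by omega)
      omega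
  by_cases hx1 : N (x + 1) = 0
  · rw [hx1, Nat.min_zero]
    by_cases hl : ∀ u, u ≤ x → N u = 0
    · left
      intro u hu
      rw [hl u hu]
    · right
      intro v hv
      push Not at hl
      obtain ⟨u, hu, hu0⟩ := hl
      by_contra hcon
      rcases Nat.lt_or_ge (x + 1) v with h1 | h1
      · have := hint u (x + 1) v (by omega) (by omega) (Nat.pos_of_ne_zero hu0) (by omega)
        omega
      · have : v = x + 1 := by omega
        subst this
        exact hcon (by omega)
  have hxp : 0 < N x := Nat.pos_of_ne_zero hx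
  have hx1p : 0 < N (x + 1) := Nat.pos_of_ne_zero hx1
  rcases Nat.le_total (N x) (N (x + 1)) with hle | hle
  · left
    rw [Nat.min_eq_left hle]
    have key : ∀ d, d ≤ x → N (x - d) ≤ N (x - d + 1) ∧ N (x - d) ≤ N x := by
      intro d
      induction d with
      | zero => intro _; exact ⟨by simpa using hle, by simp⟩
      | succ d ih =>
        intro hd
        obtain ⟨h1, h2⟩ := ih (by omega)
        set y := x - (d + 1) with hy
        have e1 : x - d = y + 1 := by omega
        rw [e1] at h1 h2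
        have h3 := hlc y
        have h4 : N y ≤ N (y + 1) := by
          by_cases h0 : N (y + 1) = 0
          · by_contra hcon
            have := hint y (y + 1) x (by omega) (by omega) (by omega) hxp
            omega
          · have h5 : 0 < N (y + 1) := Nat.pos_of_ne_zero h0
            have h6 : N y * N (y + 2) ≤ N (y + 1) * N (y + 2) := by
              calc N y * N (y + 2) ≤ N (y + 1) ^ 2 := h3
                _ = N (y + 1) * N (y + 1) := sq _
                _ ≤ _ := Nat.mul_le_mul_left _ h1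
            exact Nat.le_of_mul_le_mul_right h6 (lt_of_lt_of_le h5 h1)
        exact ⟨h4, h4.trans h2⟩
    intro u hu
    have := (key (x - u) (by omega)).2
    rwa [show x - (x - u) = u by omega] at this
  · right
    rw [Nat.min_eq_right hle]
    have key : ∀ d, N (x + 1 + d + 1) ≤ N (x + 1 + d) ∧ N (x + 1 + d) ≤ N (x + 1) := by
      intro d
      induction d with
      | zero =>
        refine ⟨?_, by simp⟩
        have h3 := hlc x
        have h6 : N x * N (x + 2) ≤ N x * N (x + 1) := by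
          calc N x * N (x + 2) ≤ N (x + 1) ^ 2 := h3
            _ = N (x + 1) * N (x + 1) := sq _
            _ ≤ _ := Nat.mul_le_mul_right _ hle
        exact Nat.le_of_mul_le_mul_left h6 hxp
      | succ d ih =>
        obtain ⟨h1, h2⟩ := ih
        refine ⟨?_, h1.trans h2⟩
        set y := x + 1 + d with hy
        have e1 : x + 1 + (d + 1) = y + 1 := by omega
        rw [e1]
        have h3 := hlc y
        by_cases h0 : N (y + 1) = 0
        · by_contra hcon
          have := hint (x + 1) (y + 1) (y + 1 + 1) (by omega) (by omega) hx1p (by omega)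
          omega
        · have h5 : 0 < N (y + 1) := Nat.pos_of_ne_zero h0
          have h6 : N (y + 1) * N (y + 1 + 1) ≤ N (y + 1) * N (y + 1) := by
            calc N (y + 1) * N (y + 1 + 1) ≤ N y * N (y + 2) :=
                  Nat.mul_le_mul_right _ h1
              _ ≤ N (y + 1) ^ 2 := h3
              _ = _ := sq _
          exact Nat.le_of_mul_le_mul_left h6 h5
    intro v hv
    have := (key (v - (x + 1))).2
    rwa [show x + 1 + (v - (x + 1)) = v by omega] at this

end

end Vale.Agent.Lib.P328S
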