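import Vale.Agent.Lib.P328S.ClaimA

/-!
The difference of the two conditional means of a binary cell of any slice (no centrality).
-/

namespace Vale.Agent.Lib.P328S

open Finset Vale.Agent.Lib.P328Q
open scoped Pointwise

noncomputable section

variable {m n : ℕ} {lo hi U : Mat m n} {r : Fin m → ℤ} {c : Fin n → ℤ}

theorem root_ineq (g : Mat m n → ℝ) (hlo : 0 ≤ lo) (p : Fin m) (q : Fin n)
    (hbin : hi p q = lo p q + 1) :
    (((cpart (slc lo hi r c) p q (hi p q)).card : ℝ) *
          ∑ x ∈ cpart (slc lo hi r c) p q (lo p q), g x -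
        ((cpart (slc lo hi r c) p q (lo p q)).card : ℝ) *
          ∑ y ∈ cpart (slc lo hi r c) p q (hi p q), g y) ^ 2 ≤
      ((cpart (slc lo hi r c) p q (lo p q)).card : ℝ) *
        ((cpart (slc lo hi r c) p q (hi p q)).card : ℝ) *
      ((m : ℝ) * ∑ a, ∑ b, ∑ V ∈ nearM lo hi r c a b, kap g a b V *
        ((cpart (nearP lo hi r c a b) p q (lo p q + hi p q - V p q)).card : ℝ)) := by
  classical
  set F := slc lo hi r c with hF
  set A := cpart F p q (lo p q) with hA
  set B := cpart F p q (hi p q) with hB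
  have hcs := pair_fibre_cs A B g
  refine hcs.trans (mul_le_mul_of_nonneg_left ?_ (by positivity))
  have hm0 : (0 : ℝ) ≤ m := Nat.cast_nonneg m
  have hww : lo p q + hi p q = lo p q + hi p q := rfl
  have hfib : ∀ U ∈ A + B, dU A B g U ^ 2 / ((aU A B U).card : ℝ) ≤
      (m : ℝ) * DD g (loF lo hi U) (hiF lo hi U) r c := by
    intro U hU
    obtain ⟨hmarg, hUpq⟩ := add_mem_cell hU
    have hfib : fib F U = slc (loF lo hi U) (hiF lo hi U) r c := fib_slc hmarg
    have hcen := central_fib (lo := lo) (hi := hi) hmarg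
    have hlo' : 0 ≤ loF lo hi U := by
      intro i j
      exact le_trans (hlo i j) (le_max_left _ _)
    have hl := loF_cell (p := p) (q := q) (lo := lo) (hi := hi) hUpq
    have hh := hiF_cell (p := p) (q := q) (lo := lo) (hi := hi) hUpq
    have hI := mean_diff g hlo' hcen p q (by rw [hh, hl, hbin])
    rw [hl, hh, ← hfib] at hI
    have hAU : aU A B U = cpart (fib F U) p q (lo p q) := aU_cpart hUpq _ _ hww
    have hBU : aU B A U = cpart (fib F U) p q (hi p q) := aU_cpart hUpq _ _ (by ring)
    have hdU : dU A B g U = ∑ x ∈ cpart (fib F U) p q (lo p q), g x -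
        ∑ y ∈ cpart (fib F U) p q (hi p q), g y := by
      unfold dU
      rw [hAU, hBU]
    have hcpos : (0 : ℝ) < ((aU A B U).card : ℝ) := by exact_mod_cast card_aU_pos hU
    rw [div_le_iff₀ hcpos, hdU, hAU]
    calc _ ≤ _ := hI
      _ = _ := by ring
  calc ∑ U ∈ A + B, dU A B g U ^ 2 / ((aU A B U).card : ℝ)
      ≤ ∑ U ∈ A + B, (m : ℝ) * DD g (loF lo hi U) (hiF lo hi U) r c := sum_le_sum hfib
    _ = (m : ℝ) * ∑ U ∈ A + B, DD g (loF lo hi U) (hiF lo hi U) r c := by rw [mul_sum]
    _ ≤ _ := by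
        refine mul_le_mul_of_nonneg_left ?_ hm0
        rw [exch g lo hi r c _ (fun U hU => (add_mem_cell hU).1)]
        refine sum_le_sum fun a _ => sum_le_sum fun b _ => sum_le_sum fun V _ => ?_
        refine mul_le_mul_of_nonneg_left ?_ (sA_kap_nonneg g a b V)
        have := count_le lo hi r c p q (lo p q + hi p q) (A + B)
          (fun U hU => (add_mem_cell hU).2) a b V
        exact_mod_cast this

end

end Vale.Agent.Lib.P328S
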