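import Vale.Agent.Lib.P328S.Root
import Vale.Agent.Lib.P328S.OneDim
import Vale.Agent.Lib.P328U.Square
import Vale.Agent.Lib.P328U.Ivt

/-!
Revealing one cell of a slice: the variance splits into the conditional variances and a one-dimensional
variance of the conditional means, which is bounded through the root inequality on windows of two values.
-/

namespace Vale.Agent.Lib.P328S

open Finset Vale.Agent.Lib.P328Q
open scoped Pointwise

noncomputable section

variable {m n : ℕ} {lo hi : Mat m n} {r : Fin m → ℤ} {c : Fin n → ℤ}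

/-- The matrix `A` with the cell `(p, q)` replaced by `v`. -/
def setCell (A : Mat m n) (p : Fin m) (q : Fin n) (v : ℤ) : Mat m n :=
  fun i j => if i = p ∧ j = q then v else A i j

theorem setCell_same (A : Mat m n) (p : Fin m) (q : Fin n) (v : ℤ) : setCell A p q v p q = v := by
  simp [setCell]

theorem setCell_ne (A : Mat m n) {p i : Fin m} {q j : Fin n} (v : ℤ) (h : ¬ (i = p ∧ j = q)) :
    setCell A p q v i j = A i j := by
  simp [setCell, h]

/-- Membership in a box with a modified cell. -/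
theorem mem_box_setCell {p : Fin m} {q : Fin n} {u v : ℤ} {X : Mat m n}
    (h : ∀ i j, setCell lo p q u i j ≤ X i j ∧ X i j ≤ setCell hi p q v i j) :
    (∀ i j, ¬ (i = p ∧ j = q) → lo i j ≤ X i j ∧ X i j ≤ hi i j) ∧ u ≤ X p q ∧ X p q ≤ v := by
  refine ⟨fun i j hij => ?_, ?_⟩
  · have := h i j
    rwa [setCell_ne _ _ hij, setCell_ne _ _ hij] at this
  · have := h p q
    rwa [setCell_same, setCell_same] at this

theorem mem_box_setCell' {p : Fin m} {q : Fin n} {u v : ℤ} {X : Mat m n}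
    (h1 : ∀ i j, ¬ (i = p ∧ j = q) → lo i j ≤ X i j ∧ X i j ≤ hi i j) (h2 : u ≤ X p q ∧ X p q ≤ v) :
    ∀ i j, setCell lo p q u i j ≤ X i j ∧ X i j ≤ setCell hi p q v i j := by
  intro i j
  by_cases hij : i = p ∧ j = q
  · obtain ⟨rfl, rfl⟩ := hij
    rwa [setCell_same, setCell_same]
  · rw [setCell_ne _ _ hij, setCell_ne _ _ hij]
    exact h1 i j hij

/-- Frozen slice = part of the slice. -/
theorem slc_frozen_eq {p : Fin m} {q : Fin n} {v : ℤ} (h1 : lo p q ≤ v) (h2 : v ≤ hi p q) :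
    slc (setCell lo p q v) (setCell hi p q v) r c = cpart (slc lo hi r c) p q v := by
  ext X
  rw [mem_cpart, mem_slc, mem_slc]
  constructor
  · rintro ⟨hb, hr, hc⟩
    obtain ⟨hb1, hb2⟩ := mem_box_setCell hb
    have hv : X p q = v := le_antisymm hb2.2 hb2.1
    refine ⟨⟨fun i j => ?_, hr, hc⟩, hv⟩
    by_cases hij : i = p ∧ j = q
    · obtain ⟨rfl, rfl⟩ := hij
      rw [hv]
      exact ⟨h1, h2⟩
    · exact hb1 i j hij
  · rintro ⟨⟨hb, hr, hc⟩, hv⟩
    exact ⟨mem_box_setCell' (fun i j _ => hb i j) ⟨hv.ge, hv.le⟩, hr, hc⟩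

/-- The part of near tables with a given value of the cell. -/
def Tp (g : Mat m n → ℝ) (lo hi : Mat m n) (r : Fin m → ℤ) (c : Fin n → ℤ) (p : Fin m) (q : Fin n)
    (v : ℤ) : ℝ :=
  ∑ a, ∑ b, ∑ V ∈ cpart (nearM lo hi r c a b) p q v, kap g a b V

theorem Tp_nonneg (g : Mat m n → ℝ) (lo hi : Mat m n) (r : Fin m → ℤ) (c : Fin n → ℤ) (p : Fin m)
    (q : Fin n) (v : ℤ) : 0 ≤ Tp g lo hi r c p q v :=
  sum_nonneg fun a _ => sum_nonneg fun b _ => sum_nonneg fun V _ => sA_kap_nonneg g a b V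

theorem sum_Tp_le (g : Mat m n → ℝ) (lo hi : Mat m n) (r : Fin m → ℤ) (c : Fin n → ℤ) (p : Fin m)
    (q : Fin n) (W : ℕ) : ∑ v ∈ range W, Tp g lo hi r c p q (v : ℤ) ≤ DD g lo hi r c := by
  classical
  unfold Tp DD
  rw [sum_comm]
  refine sum_le_sum fun a _ => ?_
  rw [sum_comm]
  refine sum_le_sum fun b _ => ?_
  unfold cpart
  simp only [sum_filter]
  rw [sum_comm]
  refine sum_le_sum fun V _ => ?_
  have hk := sA_kap_nonneg g a b V
  have h1 : ∑ v ∈ range W, (if V p q = ((v : ℕ) : ℤ) then kap g a b V else 0) =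
      ((range W).filter fun v : ℕ => V p q = (v : ℤ)).card * kap g a b V := by
    rw [← sum_filter, sum_const, nsmul_eq_mul]
  rw [h1]
  have h2 : ((range W).filter fun v : ℕ => V p q = (v : ℤ)).card ≤ 1 := by
    rw [card_le_one]
    intro x hx y hy
    have hx' := (mem_filter.1 hx).2
    have hy' := (mem_filter.1 hy).2
    have : (x : ℤ) = y := hx'.symm.trans hy'
    exact_mod_cast this
  have h3 : (((range W).filter fun v : ℕ => V p q = (v : ℤ)).card : ℝ) ≤ 1 := by exact_mod_cast h2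
  nlinarith

theorem DD_frozen_le (g : Mat m n → ℝ) {p : Fin m} {q : Fin n} {v : ℤ} (h1 : lo p q ≤ v)
    (h2 : v ≤ hi p q) :
    DD g (setCell lo p q v) (setCell hi p q v) r c ≤ Tp g lo hi r c p q v := by
  unfold DD Tp
  refine sum_le_sum fun a _ => sum_le_sum fun b _ => ?_
  refine sum_le_sum_of_subset_of_nonneg ?_ fun V _ _ => sA_kap_nonneg g a b V
  intro V hV
  unfold nearM at hV
  rw [mem_slc] at hV
  obtain ⟨hb, hr, hc⟩ := hV
  obtain ⟨hb1, hb2⟩ := mem_box_setCell hb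
  have hv : V p q = v := le_antisymm hb2.2 hb2.1
  refine mem_cpart.2 ⟨?_, hv⟩
  unfold nearM
  rw [mem_slc]
  refine ⟨fun i j => ?_, hr, hc⟩
  by_cases hij : i = p ∧ j = q
  · obtain ⟨rfl, rfl⟩ := hij
    rw [hv]
    exact ⟨h1, h2⟩
  · exact hb1 i j hij

/-- The window of two values. -/
theorem window_cpart {p : Fin m} {q : Fin n} {x w : ℤ} (h1 : lo p q ≤ w) (h2 : w ≤ hi p q)
    (h3 : x ≤ w) (h4 : w ≤ x + 1) :
    cpart (slc (setCell lo p q x) (setCell hi p q (x + 1)) r c) p q w = cpart (slc lo hi r c) p q w := by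
  ext X
  rw [mem_cpart, mem_cpart, mem_slc, mem_slc]
  constructor
  · rintro ⟨⟨hb, hr, hc⟩, hv⟩
    obtain ⟨hb1, -⟩ := mem_box_setCell hb
    refine ⟨⟨fun i j => ?_, hr, hc⟩, hv⟩
    by_cases hij : i = p ∧ j = q
    · obtain ⟨rfl, rfl⟩ := hij
      rw [hv]
      exact ⟨h1, h2⟩
    · exact hb1 i j hij
  · rintro ⟨⟨hb, hr, hc⟩, hv⟩
    refine ⟨⟨mem_box_setCell' (fun i j _ => hb i j) ?_, hr, hc⟩, hv⟩
    rw [hv]
    exact ⟨h3, h4⟩

theorem window_nearP {p : Fin m} {q : Fin n} {x w : ℤ} (a : Fin m) (b : Fin n) :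
    cpart (nearP (setCell lo p q x) (setCell hi p q (x + 1)) r c a b) p q w ⊆
      nearP (setCell lo p q w) (setCell hi p q w) r c a b := by
  intro E hE
  rw [mem_cpart] at hE
  obtain ⟨hE, hv⟩ := hE
  unfold nearP at hE ⊢
  rw [mem_slc] at hE ⊢
  obtain ⟨hb, hr, hc⟩ := hE
  obtain ⟨hb1, -⟩ := mem_box_setCell hb
  exact ⟨mem_box_setCell' hb1 ⟨hv.ge, hv.le⟩, hr, hc⟩

theorem window_sum_le (g : Mat m n → ℝ) {p : Fin m} {q : Fin n} {x : ℤ} (h1 : lo p q ≤ x)
    (h2 : x + 1 ≤ hi p q) :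
    DD g (setCell lo p q x) (setCell hi p q (x + 1)) r c ≤
      Tp g lo hi r c p q x + Tp g lo hi r c p q (x + 1) := by
  classical
  unfold DD Tp
  rw [← sum_add_distrib]
  refine sum_le_sum fun a _ => ?_
  rw [← sum_add_distrib]
  refine sum_le_sum fun b _ => ?_
  have hdisj : Disjoint (cpart (nearM lo hi r c a b) p q x) (cpart (nearM lo hi r c a b) p q (x + 1)) := by
    rw [disjoint_left]
    intro V hV hV'
    have := (mem_cpart.1 hV).2
    have h' := (mem_cpart.1 hV').2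
    omega
  rw [← sum_union hdisj]
  refine sum_le_sum_of_subset_of_nonneg ?_ fun V _ _ => sA_kap_nonneg g a b V
  intro V hV
  unfold nearM at hV
  rw [mem_slc] at hV
  obtain ⟨hb, hr, hc⟩ := hV
  obtain ⟨hb1, hb2⟩ := mem_box_setCell hb
  have hV' : V ∈ nearM lo hi r c a b := by
    unfold nearM
    rw [mem_slc]
    refine ⟨fun i j => ?_, hr, hc⟩
    by_cases hij : i = p ∧ j = q
    · obtain ⟨rfl, rfl⟩ := hij
      constructor <;> omega
    · exact hb1 i j hij
  rw [mem_union]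
  have : V p q = x ∨ V p q = x + 1 := by omega
  rcases this with h | h
  · exact Or.inl (mem_cpart.2 ⟨hV', h⟩)
  · exact Or.inr (mem_cpart.2 ⟨hV', h⟩)

/-- The difference of the means on a window of two values. -/
theorem window_bound (g : Mat m n → ℝ) (hlo : 0 ≤ lo) {p : Fin m} {q : Fin n} (x : ℤ) (R : ℝ)
    (hR : 0 ≤ R)
    (hA : (cpart (slc lo hi r c) p q x).Nonempty) (hB : (cpart (slc lo hi r c) p q (x + 1)).Nonempty)
    (hnear : ∀ w, (cpart (slc lo hi r c) p q w).Nonempty → ∀ a b,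
      ((nearP (setCell lo p q w) (setCell hi p q w) r c a b).card : ℝ) ≤
        R * ((cpart (slc lo hi r c) p q w).card : ℝ)) :
    min ((cpart (slc lo hi r c) p q x).card : ℝ) ((cpart (slc lo hi r c) p q (x + 1)).card : ℝ) *
      ((∑ X ∈ cpart (slc lo hi r c) p q x, g X) / ((cpart (slc lo hi r c) p q x).card : ℝ) -
        (∑ X ∈ cpart (slc lo hi r c) p q (x + 1), g X) /
          ((cpart (slc lo hi r c) p q (x + 1)).card : ℝ)) ^ 2 ≤
      (m : ℝ) * R * (Tp g lo hi r c p q x + Tp g lo hi r c p q (x + 1)) := by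
  classical
  set F := slc lo hi r c with hF
  set A := cpart F p q x with hAdef
  set B := cpart F p q (x + 1) with hBdef
  obtain ⟨X₁, hX₁⟩ := hA
  obtain ⟨X₂, hX₂⟩ := hB
  have hX₁' := mem_cpart.1 hX₁
  have hX₂' := mem_cpart.1 hX₂
  have h1 : lo p q ≤ x := by
    have := ((mem_slc.1 hX₁'.1).1 p q).1
    rwa [hX₁'.2] at this
  have h2 : x + 1 ≤ hi p q := by
    have := ((mem_slc.1 hX₂'.1).1 p q).2
    rwa [hX₂'.2] at this
  set lo' := setCell lo p q x with hlo'
  set hi' := setCell hi p q (x + 1) with hhi'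
  have hl : lo' p q = x := setCell_same _ _ _ _
  have hh : hi' p q = x + 1 := setCell_same _ _ _ _
  have hAw : cpart (slc lo' hi' r c) p q x = A :=
    window_cpart h1 (by omega) (le_refl _) (by omega)
  have hBw : cpart (slc lo' hi' r c) p q (x + 1) = B :=
    window_cpart (by omega) h2 (by omega) (le_refl _)
  have hlo'0 : 0 ≤ lo' := by
    intro i j
    by_cases hij : i = p ∧ j = q
    · obtain ⟨rfl, rfl⟩ := hij
      rw [hl]
      exact le_trans (hlo _ _) h1
    · rw [hlo', setCell_ne _ _ hij]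
      exact hlo i j
  have hroot := root_ineq (lo := lo') (hi := hi') (r := r) (c := c) g hlo'0 p q (by rw [hh, hl])
  rw [hl, hh, hAw, hBw] at hroot
  set n₁ : ℝ := (A.card : ℝ) with hn₁
  set n₂ : ℝ := (B.card : ℝ) with hn₂
  have hn₁pos : 0 < n₁ := by rw [hn₁]; exact_mod_cast card_pos.2 ⟨X₁, hX₁⟩
  have hn₂pos : 0 < n₂ := by rw [hn₂]; exact_mod_cast card_pos.2 ⟨X₂, hX₂⟩
  set S₁ := ∑ X ∈ A, g X with hS₁
  set S₂ := ∑ X ∈ B, g X with hS₂
  set mx := max n₁ n₂ with hmx
  have hmxpos : 0 < mx := lt_of_lt_of_le hn₁pos (le_max_left _ _)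
  have hTT0 := add_nonneg (Tp_nonneg g lo hi r c p q x) (Tp_nonneg g lo hi r c p q (x + 1))
  set TT := Tp g lo hi r c p q x + Tp g lo hi r c p q (x + 1) with hTT
  -- the sum of near tables
  have hsum : ∑ a, ∑ b, ∑ V ∈ nearM lo' hi' r c a b, kap g a b V *
      ((cpart (nearP lo' hi' r c a b) p q (x + (x + 1) - V p q)).card : ℝ) ≤ (R * mx) * TT := by
    have hstep : ∀ a b, ∀ V ∈ nearM lo' hi' r c a b,
        kap g a b V * ((cpart (nearP lo' hi' r c a b) p q (x + (x + 1) - V p q)).card : ℝ) ≤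
          kap g a b V * (R * mx) := by
      intro a b V hV
      refine mul_le_mul_of_nonneg_left ?_ (sA_kap_nonneg g a b V)
      have hVb : x ≤ V p q ∧ V p q ≤ x + 1 := by
        have := hV; unfold nearM at this; rw [mem_slc] at this
        have h3 := this.1 p q
        rwa [hl, hh] at h3
      have hw : x + (x + 1) - V p q = x ∨ x + (x + 1) - V p q = x + 1 := by omega
      have hcard : ∀ w, (cpart F p q w).Nonempty → (cpart F p q w).card = A.card ∨
          (cpart F p q w).card = B.card → 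
          ((cpart (nearP lo' hi' r c a b) p q w).card : ℝ) ≤ R * mx := by
        intro w hne hw'
        have h4 : ((cpart (nearP lo' hi' r c a b) p q w).card : ℝ) ≤
            ((nearP (setCell lo p q w) (setCell hi p q w) r c a b).card : ℝ) := by
          exact_mod_cast card_le_card (window_nearP a b)
        refine h4.trans ((hnear w hne a b).trans (mul_le_mul_of_nonneg_left ?_ hR))
        rcases hw' with h5 | h5
        · rw [h5]; exact le_max_left _ _
        · rw [h5]; exact le_max_right _ _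
      rcases hw with hw | hw
      · rw [hw]
        exact hcard x ⟨X₁, hX₁⟩ (Or.inl rfl)
      · rw [hw]
        exact hcard (x + 1) ⟨X₂, hX₂⟩ (Or.inr rfl)
    calc _ ≤ ∑ a, ∑ b, ∑ V ∈ nearM lo' hi' r c a b, kap g a b V * (R * mx) :=
          sum_le_sum fun a _ => sum_le_sum fun b _ => sum_le_sum fun V hV => hstep a b V hV
      _ = (R * mx) * DD g lo' hi' r c := by
          unfold DD
          simp only [mul_sum]
          refine sum_congr rfl fun a _ => sum_congr rfl fun b _ => sum_congr rfl fun V _ => ?_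
          ring
      _ ≤ _ := mul_le_mul_of_nonneg_left (window_sum_le g h1 h2) (by positivity)
  have hm0 : (0 : ℝ) ≤ m := Nat.cast_nonneg m
  have hroot2 : (n₂ * S₁ - n₁ * S₂) ^ 2 ≤ n₁ * n₂ * ((m : ℝ) * ((R * mx) * TT)) :=
    hroot.trans (mul_le_mul_of_nonneg_left (mul_le_mul_of_nonneg_left hsum hm0) (by positivity))
  have hdiff : n₂ * S₁ - n₁ * S₂ = n₁ * n₂ * (S₁ / n₁ - S₂ / n₂) := by
    field_simp
  rw [hdiff] at hroot2
  set d := S₁ / n₁ - S₂ / n₂ with hd
  have hnn : n₁ * n₂ = min n₁ n₂ * mx := by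
    rw [hmx, min_mul_max]
  have hminpos : 0 < min n₁ n₂ := lt_min hn₁pos hn₂pos
  have h5 : (n₁ * n₂) * ((n₁ * n₂) * d ^ 2) ≤ (n₁ * n₂) * ((m : ℝ) * ((R * mx) * TT)) := by
    calc (n₁ * n₂) * ((n₁ * n₂) * d ^ 2) = (n₁ * n₂ * d) ^ 2 := by ring
      _ ≤ _ := hroot2
  have h6 : (n₁ * n₂) * d ^ 2 ≤ (m : ℝ) * ((R * mx) * TT) :=
    le_of_mul_le_mul_left h5 (by positivity)
  rw [hnn] at h6
  have h7 : mx * (min n₁ n₂ * d ^ 2) ≤ mx * ((m : ℝ) * R * TT) := by
    calc mx * (min n₁ n₂ * d ^ 2) = min n₁ n₂ * mx * d ^ 2 := by ring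
      _ ≤ _ := h6
      _ = _ := by ring
  exact le_of_mul_le_mul_left h7 hmxpos

end

end Vale.Agent.Lib.P328S
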